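import Vale.Agent.P298.H868.XT
import Vale.Agent.P298.H701.EmbE
import Vale.Agent.P298.H471.Inst

/-!
# The first coordinate on the surface: the concrete field
-/

set_option linter.style.haveILetI false

noncomputable section

namespace Vale.Agent.P298.H868.Xf

open Filter Topology Polynomial Vale.Agent.P298 Vale.Agent.P298.H707 Vale.Agent.P298.H928
open Vale.Agent.P298.H416 (Om Ta Surf pwOm)
open Vale.Agent.P298.H701 (ser2 KF PL LL2 psiC liftL tau tau_injective psiC_algebraMap rk)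
open Vale.Agent.P298.H471 (RV cl algRK)

variable {f : (Fin 3 → ℂ) → ℂ} {n : ℕ} {P : ℂ × ℂ → ℂ[X]} {v : ℂ × (ℂ × ℂ) → ℂ}
    {T : Tree fun p => p.1 * disc n P p} {ζ : PlT T → Fin n → ℂ × ℂ → ℂ}
    {σ ρ : PlT T → Equiv.Perm (Fin n)}

theorem jac_freq (T : Tree fun p => p.1 * disc n P p) (p : PlT T) :
    ∃ᶠ q in 𝓝 (0 : ℂ × ℂ), jacP (ThT T p) q ≠ 0 := by
  obtain ⟨a, b, h⟩ := JungT.jac T p
  have hc : Tendsto (fun s : ℂ => ((s, s) : ℂ × ℂ)) (𝓝[≠] 0) (𝓝 0) := by
    have : Continuous fun s : ℂ => ((s, s) : ℂ × ℂ) := by fun_prop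
    exact (this.tendsto' 0 0 rfl).mono_left nhdsWithin_le_nhds
  have h1 : ∀ᶠ s : ℂ in 𝓝[≠] 0, jacP (ThT T p) (s, s) ≠ 0 := by
    filter_upwards [hc.eventually h.ne_zero, self_mem_nhdsWithin] with s hs hs0
    exact hs hs0 hs0
  exact hc.frequently h1.frequently

theorem thL_eq (J : JungT f n P v T ζ σ ρ) (p : PlT T) (x : L0) :
    T.thL p.1.2 p.2 n.factorial (J.M.C p).hK x =
      liftL (tau (ThT T p) (J.M.an p) (J.M.zero p) n.factorial (J.M.C p).hK)
        (tau_injective (J.M.an p) (J.M.zero p) (jac_freq T p) (J.M.C p).hK) x := by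
  have h : liftL (tau (ThT T p) (J.M.an p) (J.M.zero p) n.factorial (J.M.C p).hK)
      (tau_injective (J.M.an p) (J.M.zero p) (jac_freq T p) (J.M.C p).hK) =
      T.thL p.1.2 p.2 n.factorial (J.M.C p).hK :=
    T.thL_unique p.1.2 p.2 n.factorial (J.M.C p).hK fun g => H701.liftL_apply _ _ g
  rw [h]

variable [Fact (Irreducible (PL n P))]

/-- the embeddings over a chart are the embeddings by the roots. -/
theorem exists_psiC (J : JungT f n P v T ζ σ ρ) (p : PlT T) (ψ : KF n P →+* Om)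
    (hψ : ∀ x : L0, ψ (algebraMap L0 (KF n P) x) =
      pwOm n.factorial (Nat.factorial_pos n) (T.thL p.1.2 p.2 1 one_ne_zero x)) :
    ∃ l, ψ = psiC J.M.W (J.M.C p) (J.M.an p) (J.M.zero p) (jac_freq T p) l :=
  H701.exists_eq_psiC J.M.W (J.M.C p) (J.M.an p) (J.M.zero p) (jac_freq T p) ψ fun x => by
    rw [← thL_eq J p x]
    exact (hψ x).trans (pw_thL T p.1.2 p.2 n.factorial (Nat.factorial_pos n) x)

/-- an embedding by a root is an embedding over the chart. -/
theorem psiC_comm (J : JungT f n P v T ζ σ ρ) (p : PlT T) (l : Fin n) (x : L0) :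
    psiC J.M.W (J.M.C p) (J.M.an p) (J.M.zero p) (jac_freq T p) l (algebraMap L0 (KF n P) x) =
      pwOm n.factorial (Nat.factorial_pos n) (T.thL p.1.2 p.2 1 one_ne_zero x) := by
  refine (psiC_algebraMap J.M.W (J.M.C p) (J.M.an p) (J.M.zero p) (jac_freq T p) l x).trans ?_
  rw [← thL_eq J p x]
  exact (pw_thL T p.1.2 p.2 n.factorial (Nat.factorial_pos n) x).symm

section surf

variable {R : Type} [FiniteDimensional L0 (KF n P)]
  [Algebra.IsSeparable L0 (KF n P)] [CommRing R] [Algebra ℂ R] [Algebra R (KF n P)]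
  [IsScalarTower ℂ R (KF n P)]

/-- **the first coordinate on the surface, concrete form.** -/
def xdJ (J : JungT f n P v T ζ σ ρ) (hf0 : f 0 = 0)
    (hDy : ∃ᶠ y in 𝓝 (0 : ℂ), disc n P (0, y) ≠ 0) (split) (hR) (inj) :
    (surfT (K := KF n P) (R := R) T (JungT.H0 n P) n.factorial (Nat.factorial_pos n) (ndT T)
      ndT_symm ndT_ne ndT_fin (fun _ _ h => ndT_iff.1 h) split hR inj).XD
        (algebraMap R2 Om (MvPowerSeries.X 0)) :=
  xdT J hDy n.factorial (Nat.factorial_pos n) split hR inj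
    (fun p => ⟨{ f := psiC J.M.W (J.M.C p) (J.M.an p) (J.M.zero p) (jac_freq T p)
                  ⟨0, J.n_pos hf0⟩
                 comm := psiC_comm J p _ }⟩)
    (fun p hρ ψ z hz => by
      obtain ⟨l, hl⟩ := exists_psiC J p ψ.f ψ.comm
      rw [hl]
      exact dvd_lam_of_rho J.M.W (J.M.C p) (J.M.an p) (J.M.zero p) (jac_freq T p) hρ l hz)

end surf

/-- the class of `x` in the function field. -/
theorem algRK_x (hf : Hol f) (W : WD f n P v) :
    letI := algRK hf W
    algebraMap (RV f) (KF n P) (xR f) =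
      algebraMap L0 (KF n P) (algebraMap R2 L0 (MvPowerSeries.X 0)) := by
  letI := algRK hf W
  have h1 : algebraMap (RV f) (KF n P) (xR f) = rk hf W (xR f) := rfl
  have h2 : xR f = Ideal.Quotient.mk _ (H701.incl (MvPowerSeries.X 0)) := by
    rw [H701.incl_X0]
    rfl
  rw [h1, h2, H701.rk_incl]
  exact IsScalarTower.algebraMap_apply _ _ _ _

theorem xR_ne (hf : Hol f) (W : WD f n P v) : xR f ≠ 0 := by
  letI := algRK hf W
  intro h
  have h1 := algRK_x (n := n) (P := P) hf W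
  rw [h, map_zero] at h1
  have h2 : (MvPowerSeries.X 0 : MvPowerSeries (Fin 2) ℂ) = 0 := by
    apply IsFractionRing.injective (MvPowerSeries (Fin 2) ℂ) L0
    apply (algebraMap L0 (KF n P)).injective
    rw [map_zero, map_zero]
    exact h1.symm
  exact H701.X_ne_zero 0 h2

end Vale.Agent.P298.H868.Xf
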