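import Vale.Agent.P298.Main.Iface
import Vale.Agent.P298.H707.Glue6
import Vale.Agent.P298.H845.Coord

/-!
# E1: shears `(x, y, z) ↦ (x + c y, y, z)`; reduction of `E1Stmt` to germs whose discriminant does
not vanish identically on the line `x = 0`
-/

namespace Vale.Agent.P298.H868.Coord

open Filter Topology Metric Set MeasureTheory Vale.Agent.P298 Polynomial
open Vale.Agent.P298.H379 (InI Rts rootSum nu Nloc pt)
open Vale.Agent.P298.H707 (WD disc)
open Vale.Agent.P298.Main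
open scoped ENNReal

/-- the shear `(x, y, z) ↦ (x + c y, y, z)` -/
noncomputable def shL (c : ℂ) : (Fin 3 → ℂ) →L[ℂ] (Fin 3 → ℂ) :=
  ContinuousLinearMap.pi ![ContinuousLinearMap.proj 0 + c • ContinuousLinearMap.proj 1,
    ContinuousLinearMap.proj 1, ContinuousLinearMap.proj 2]

theorem shL_apply (c : ℂ) (x : Fin 3 → ℂ) : shL c x = ![x 0 + c * x 1, x 1, x 2] := by
  funext i
  fin_cases i <;> simp [shL]

theorem shL_neg (c : ℂ) (x : Fin 3 → ℂ) : shL (-c) (shL c x) = x := by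
  rw [shL_apply, shL_apply]
  funext i
  fin_cases i <;> simp

/-- the shear as an equivalence -/
noncomputable def sh (c : ℂ) : (Fin 3 → ℂ) ≃L[ℂ] (Fin 3 → ℂ) :=
  ContinuousLinearEquiv.equivOfInverse (shL c) (shL (-c)) (shL_neg c) (fun x => by
    have := shL_neg (-c) x
    rwa [neg_neg] at this)

theorem sh_apply (c : ℂ) (x : Fin 3 → ℂ) : sh c x = ![x 0 + c * x 1, x 1, x 2] := shL_apply c x

theorem sh_neg (c : ℂ) (x : Fin 3 → ℂ) : sh (-c) (sh c x) = x := shL_neg c x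

theorem sh_neg' (c : ℂ) (x : Fin 3 → ℂ) : sh c (sh (-c) x) = x := by
  have := sh_neg (-c) x
  rwa [neg_neg] at this

/-- the shear of the base -/
def sh2 (c : ℂ) (p : ℂ × ℂ) : ℂ × ℂ := (p.1 + c * p.2, p.2)

theorem sh_pt (c : ℂ) (p : ℂ × ℂ) (z : ℂ) : sh c (pt p z) = pt (sh2 c p) z := by
  rw [sh_apply]
  rfl

theorem sh2_neg (c : ℂ) (p : ℂ × ℂ) : sh2 (-c) (sh2 c p) = p := by
  ext <;> simp [sh2]

theorem sh2_neg' (c : ℂ) (p : ℂ × ℂ) : sh2 c (sh2 (-c) p) = p := by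
  ext <;> simp [sh2]

theorem continuous_sh2 (c : ℂ) : Continuous (sh2 c) := by
  unfold sh2
  fun_prop

theorem analyticAt_sh (c : ℂ) (x : Fin 3 → ℂ) : AnalyticAt ℂ (fun x => sh c x) x :=
  (sh c).toContinuousLinearMap.analyticAt x

theorem pd_sh (c : ℂ) (f : (Fin 3 → ℂ) → ℂ) (i : Fin 3) (x : Fin 3 → ℂ) :
    pd i (fun x => f (sh c x)) x = fderiv ℂ f (sh c x) (sh c (Pi.single i 1)) := by
  have h := (sh c).comp_right_fderiv (f := f) (x := x)
  unfold pd
  change fderiv ℂ (f ∘ (sh c)) x (Pi.single i 1) = _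
  rw [h]
  rfl

theorem sh_single_zero (c : ℂ) : sh c (Pi.single 0 1) = Pi.single 0 1 := by
  rw [sh_apply]
  funext i
  fin_cases i <;> simp

theorem sh_single_one (c : ℂ) :
    sh c (Pi.single 1 1) = c • Pi.single 0 (1 : ℂ) + Pi.single 1 (1 : ℂ) := by
  rw [sh_apply]
  funext i
  fin_cases i <;> simp

theorem sh_single_two (c : ℂ) : sh c (Pi.single 2 1) = Pi.single 2 1 := by
  rw [sh_apply]
  funext i
  fin_cases i <;> simp

theorem pd_zero_sh (c : ℂ) (f : (Fin 3 → ℂ) → ℂ) (x : Fin 3 → ℂ) :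
    pd 0 (fun x => f (sh c x)) x = pd 0 f (sh c x) := by
  rw [pd_sh, sh_single_zero]
  rfl

theorem pd_one_sh (c : ℂ) (f : (Fin 3 → ℂ) → ℂ) (x : Fin 3 → ℂ) :
    pd 1 (fun x => f (sh c x)) x = c * pd 0 f (sh c x) + pd 1 f (sh c x) := by
  rw [pd_sh, sh_single_one, map_add, map_smul]
  rfl

theorem pd_two_sh (c : ℂ) (f : (Fin 3 → ℂ) → ℂ) (x : Fin 3 → ℂ) :
    pd 2 (fun x => f (sh c x)) x = pd 2 f (sh c x) := by
  rw [pd_sh, sh_single_two]
  rfl

theorem jac3_eq (f g h : (Fin 3 → ℂ) → ℂ) (x : Fin 3 → ℂ) :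
    jac3 f g h x = pd 0 f x * pd 1 g x * pd 2 h x - pd 0 f x * pd 2 g x * pd 1 h x -
      pd 1 f x * pd 0 g x * pd 2 h x + pd 1 f x * pd 2 g x * pd 0 h x +
      pd 2 f x * pd 0 g x * pd 1 h x - pd 2 f x * pd 1 g x * pd 0 h x := by
  unfold jac3
  rw [Matrix.det_fin_three]
  rfl

theorem jac3_sh (c : ℂ) (f g h : (Fin 3 → ℂ) → ℂ) (x : Fin 3 → ℂ) :
    jac3 (fun x => f (sh c x)) (fun x => g (sh c x)) (fun x => h (sh c x)) x =
      jac3 f g h (sh c x) := by
  simp only [jac3_eq, pd_zero_sh, pd_one_sh, pd_two_sh]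
  ring

theorem hol_sh (c : ℂ) {f : (Fin 3 → ℂ) → ℂ} (hf : Hol f) : Hol (fun x => f (sh c x)) :=
  H845.hol_comp hf (analyticAt_sh c 0) (map_zero _)

theorem tendsto_sh (c : ℂ) : Tendsto (fun x => sh c x) (𝓝 0) (𝓝 0) := by
  have := (sh c).continuous.tendsto 0
  rwa [map_zero] at this

/-! ### measure -/

theorem mp_sh2 (c : ℂ) : MeasurePreserving (sh2 c) := by
  have h1 : MeasurePreserving (fun p : ℂ × ℂ => (p.1, p.2 + c * p.1)) (volume.prod volume)
      (volume.prod volume) := by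
    refine (MeasurePreserving.id (volume : Measure ℂ)).skew_product
      (g := fun a b => b + c * a) (by fun_prop) (ae_of_all _ fun a => ?_)
    exact (measurePreserving_add_right (volume : Measure ℂ) (c * a)).map_eq
  have h2 : MeasurePreserving (Prod.swap : ℂ × ℂ → ℂ × ℂ) (volume.prod volume)
      (volume.prod volume) := Measure.measurePreserving_swap
  have h3 := h2.comp (h1.comp h2)
  exact h3

theorem emb_sh2 (c : ℂ) : MeasurableEmbedding (sh2 c) := by
  let e : (ℂ × ℂ) ≃ₜ (ℂ × ℂ) := ⟨⟨sh2 c, sh2 (-c), sh2_neg c, sh2_neg' c⟩,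
    continuous_sh2 c, continuous_sh2 (-c)⟩
  exact e.measurableEmbedding

theorem nu_sh (c : ℂ) (f : (Fin 3 → ℂ) → ℂ) (s : ℂ) (φ : (Fin 3 → ℂ) → ℝ≥0∞) :
    nu (fun x => f (sh c x)) s (fun x => φ (sh c x)) = nu f s φ := by
  have h1 : ∀ p, rootSum (fun x => f (sh c x)) s (fun x => φ (sh c x)) p =
      rootSum f s φ (sh2 c p) := by
    intro p
    have h2 : Rts (fun x => f (sh c x)) s p = Rts f s (sh2 c p) := by
      ext z
      simp only [Rts, mem_ofPred_eq, pd_two_sh, sh_pt]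
    unfold rootSum
    rw [h2]
    refine tsum_congr fun z => ?_
    simp only [pd_two_sh, sh_pt]
  unfold nu
  simp only [h1]
  exact (mp_sh2 c).lintegral_comp_emb (emb_sh2 c) _

theorem inI_sh (c : ℂ) {f h : (Fin 3 → ℂ) → ℂ} {k : ℝ} (H : InI f k h) :
    InI (fun x => f (sh c x)) k (fun x => h (sh c x)) := by
  obtain ⟨hh, r, hr, hfin⟩ := H
  refine ⟨hol_sh c hh, ?_⟩
  obtain ⟨δ, hδ, hsub⟩ := Metric.eventually_nhds_iff_ball.1
    ((tendsto_sh c).eventually (ball_mem_nhds (0 : Fin 3 → ℂ) hr))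
  refine ⟨δ, hδ, lt_of_le_of_lt ?_ hfin⟩
  have h1 := nu_sh c f 0 ((ball (0 : Fin 3 → ℂ) r).indicator fun x => ‖h x‖ₑ ^ (2 / k))
  unfold Nloc
  rw [← h1]
  unfold nu rootSum
  refine lintegral_mono fun p => ENNReal.tsum_le_tsum fun z => ?_
  gcongr
  by_cases hx : pt p z ∈ ball (0 : Fin 3 → ℂ) δ
  · rw [indicator_of_mem hx]
    have h5 : sh c (pt p z) ∈ ball (0 : Fin 3 → ℂ) r := hsub _ hx
    have h6 : (ball (0 : Fin 3 → ℂ) r).indicator (fun x => ‖h x‖ₑ ^ (2 / k)) (sh c (pt p z)) =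
      ‖h (sh c (pt p z))‖ₑ ^ (2 / k) := indicator_of_mem h5 _
    exact le_of_eq h6.symm
  · rw [indicator_of_notMem hx]
    exact bot_le

theorem inI_of_sh (c : ℂ) {f h : (Fin 3 → ℂ) → ℂ} {k : ℝ}
    (H : InI (fun x => f (sh c x)) k (fun x => h (sh c x))) : InI f k h := by
  have := inI_sh (-c) H
  simpa only [sh_neg'] using this

theorem lc_of_sh (c : ℂ) {f : (Fin 3 → ℂ) → ℂ} (H : LC (fun x => f (sh c x))) : LC f := by
  intro h hh h0 k hk
  exact inI_of_sh c (H _ (hol_sh c hh) (by simpa using h0) k hk)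

theorem colength_sh (c : ℂ) {k : ℕ} {s : Fin k → (Fin 3 → ℂ) → ℂ} {d : ℕ} (h : Colength s d) :
    Colength (fun j x => s j (sh c x)) d :=
  H845.colength_comp (analyticAt_sh c 0) (analyticAt_sh (-c) 0) (map_zero _) (map_zero _)
    (Eventually.of_forall fun x => sh_neg c x) (Eventually.of_forall fun x => sh_neg' c x) h

theorem milnor_sh (c : ℂ) {f : (Fin 3 → ℂ) → ℂ} (hf : Hol f) {μ : ℕ} (h : Milnor f μ) :
    Milnor (fun x => f (sh c x)) μ :=
  H845.milnor_comp hf (analyticAt_sh c 0) (analyticAt_sh (-c) 0) (map_zero _) (map_zero _)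
    (Eventually.of_forall fun x => sh_neg c x) (Eventually.of_forall fun x => sh_neg' c x) h

theorem e1Data_sh (c : ℂ) {f e e' : (Fin 3 → ℂ) → ℂ} {m A : ℕ} (H : E1Data f m A e e') :
    E1Data (fun x => f (sh c x)) m A (fun x => e (sh c x)) (fun x => e' (sh c x)) where
  m_two := H.m_two
  hol := hol_sh c H.hol
  hol' := hol_sh c H.hol'
  zero := by simpa using H.zero
  zero' := by simpa using H.zero'
  inI k h1 h2 := inI_sh c (H.inI k h1 h2)
  inI' k h1 h2 := inI_sh c (H.inI' k h1 h2)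
  col := by
    have h := colength_sh c H.col
    have h1 : (fun (j : Fin 3) x => (![f, e, e'] : Fin 3 → _) j (sh c x)) =
        ![fun x => f (sh c x), fun x => e (sh c x), fun x => e' (sh c x)] := by
      funext j
      fin_cases j <;> rfl
    rwa [h1] at h
  jac := by
    obtain ⟨C, hC⟩ := H.jac
    refine ⟨C, ?_⟩
    filter_upwards [(tendsto_sh c).eventually hC] with x hx h0
    rw [jac3_sh]
    exact hx h0

theorem e1Data_of_sh (c : ℂ) {f e e' : (Fin 3 → ℂ) → ℂ} {m A : ℕ}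
    (H : E1Data (fun x => f (sh c x)) m A e e') :
    E1Data f m A (fun x => e (sh (-c) x)) (fun x => e' (sh (-c) x)) := by
  have := e1Data_sh (-c) H
  simpa only [sh_neg'] using this

/-! ### the choice of the shear -/

/-- an analytic germ in two variables which is not zero does not vanish on a general line -/
theorem exists_line {g : ℂ × ℂ → ℂ} (hg : AnalyticAt ℂ g 0)
    (hne : ∃ᶠ p in 𝓝 (0 : ℂ × ℂ), g p ≠ 0) : ∃ c : ℂ, ∃ᶠ y in 𝓝 (0 : ℂ), g (c * y, y) ≠ 0 := by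
  by_contra hcon
  push Not at hcon
  obtain ⟨r, hr, hball⟩ := Metric.eventually_nhds_iff_ball.1 hg.eventually_analyticAt
  have key : ∀ p ∈ ball (0 : ℂ × ℂ) r, p.2 ≠ 0 → g p = 0 := by
    intro p hp hp2
    -- the line through `p`
    have hline : ∀ t : ℂ, (t * p.1, t * p.2) = t • p := fun t => rfl
    have h1 : ∀ t ∈ ball (0 : ℂ) (r / ‖p‖), t • p ∈ ball (0 : ℂ × ℂ) r := by
      intro t ht
      have hpn : 0 < ‖p‖ := norm_pos_iff.2 fun h => hp2 (by rw [h]; rfl)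
      rw [mem_ball_zero_iff] at ht ⊢
      rw [norm_smul]
      rwa [lt_div_iff₀ hpn] at ht
    have hpn : 0 < ‖p‖ := norm_pos_iff.2 fun h => hp2 (by rw [h]; rfl)
    have h2 : AnalyticOnNhd ℂ (fun t : ℂ => g (t • p)) (ball 0 (r / ‖p‖)) := by
      intro t ht
      exact (hball _ (h1 t ht)).comp_of_eq (f := fun t : ℂ => t • p)
        (analyticAt_id.smul analyticAt_const) rfl
    have h3 : (fun t : ℂ => g (t • p)) =ᶠ[𝓝 0] 0 := by
      have h4 := hcon (p.1 / p.2)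
      have h5 : Tendsto (fun t : ℂ => t * p.2) (𝓝 0) (𝓝 0) := by
        have : Continuous fun t : ℂ => t * p.2 := by fun_prop
        simpa using this.tendsto 0
      filter_upwards [h5.eventually h4] with t ht
      have h6 : (p.1 / p.2 * (t * p.2), t * p.2) = t • p := by
        rw [← hline]
        ext
        · field_simp
        · rfl
      rw [h6] at ht
      exact ht
    have h4 := h2.eqOn_zero_of_preconnected_of_eventuallyEq_zero
      (convex_ball 0 _).isPreconnected (mem_ball_self (div_pos hr hpn)) h3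
    have h5 : (1 : ℂ) ∈ ball (0 : ℂ) (r / ‖p‖) := by
      rw [mem_ball_zero_iff, norm_one, lt_div_iff₀ hpn, one_mul]
      exact mem_ball_zero_iff.1 hp
    have h6 := h4 h5
    simpa using h6
  apply hne
  filter_upwards [ball_mem_nhds (0 : ℂ × ℂ) hr] with p hp
  rw [not_not]
  by_cases hp2 : p.2 ≠ 0
  · exact key p hp hp2
  · push Not at hp2
    -- continuity
    have hc : ContinuousAt (fun t : ℂ => g (p.1, t)) 0 := by
      have h7 : ContinuousAt g (p.1, 0) := by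
        have : (p.1, (0 : ℂ)) = p := by rw [← hp2]
        rw [this]
        exact (hball p hp).continuousAt
      exact h7.comp_of_eq (f := fun t : ℂ => ((p.1, t) : ℂ × ℂ)) (by fun_prop) rfl
    have h8 : ∀ᶠ t : ℂ in 𝓝[≠] 0, g (p.1, t) = 0 := by
      have h9 : ∀ᶠ t : ℂ in 𝓝 0, (p.1, t) ∈ ball (0 : ℂ × ℂ) r := by
        have h10 : ContinuousAt (fun t : ℂ => ((p.1, t) : ℂ × ℂ)) 0 := by fun_prop
        refine h10.eventually (isOpen_ball.mem_nhds ?_)
        have : (p.1, (0 : ℂ)) = p := by rw [← hp2]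
        change (p.1, (0 : ℂ)) ∈ ball (0 : ℂ × ℂ) r
        rw [this]
        exact hp
      filter_upwards [nhdsWithin_le_nhds h9, self_mem_nhdsWithin] with t ht ht0
      exact key _ ht ht0
    have h11 : Tendsto (fun t : ℂ => g (p.1, t)) (𝓝[≠] 0) (𝓝 (g (p.1, 0))) :=
      hc.tendsto.mono_left nhdsWithin_le_nhds
    have h12 : Tendsto (fun t : ℂ => g (p.1, t)) (𝓝[≠] 0) (𝓝 0) :=
      tendsto_const_nhds.congr' (h8.mono fun t ht => ht.symm)
    have h13 := tendsto_nhds_unique h11 h12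
    have h14 : (p.1, (0 : ℂ)) = p := by rw [← hp2]
    rwa [h14] at h13

theorem analyticAt_sh2 (c : ℂ) (p : ℂ × ℂ) : AnalyticAt ℂ (sh2 c) p := by
  unfold sh2
  exact (analyticAt_fst.add (analyticAt_const.mul analyticAt_snd)).prod analyticAt_snd

theorem sh2_zero (c : ℂ) : sh2 c 0 = 0 := by
  ext <;> simp [sh2]

theorem wd_sh (c : ℂ) {f : (Fin 3 → ℂ) → ℂ} {n : ℕ} {P : ℂ × ℂ → ℂ[X]}
    {v : ℂ × (ℂ × ℂ) → ℂ} (W : WD f n P v) :
    WD (fun x => f (sh c x)) n (fun p => P (sh2 c p)) (fun z => v (z.1, sh2 c z.2)) where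
  monic p := W.monic _
  deg p := W.deg _
  hol i := (W.hol i).comp_of_eq (f := sh2 c) (analyticAt_sh2 c 0) (sh2_zero c)
  zero := by rw [sh2_zero]; exact W.zero
  va := W.va.comp_of_eq (f := fun z : ℂ × (ℂ × ℂ) => (z.1, sh2 c z.2))
    (analyticAt_fst.prod ((analyticAt_sh2 c 0).comp_of_eq analyticAt_snd rfl))
    (by simp [sh2_zero])
  v0 := by
    have : ((0 : ℂ × (ℂ × ℂ)).1, sh2 c (0 : ℂ × (ℂ × ℂ)).2) = 0 := by simp [sh2_zero]
    rw [this]
    exact W.v0
  fac := by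
    have h1 : Tendsto (fun z : ℂ × (ℂ × ℂ) => (z.1, sh2 c z.2)) (𝓝 0) (𝓝 0) := by
      have h2 : Continuous fun z : ℂ × (ℂ × ℂ) => (z.1, sh2 c z.2) :=
        continuous_fst.prodMk ((continuous_sh2 c).comp continuous_snd)
      have h3 := h2.tendsto 0
      have h4 : ((0 : ℂ × (ℂ × ℂ)).1, sh2 c (0 : ℂ × (ℂ × ℂ)).2) = 0 := by simp [sh2_zero]
      rwa [h4] at h3
    filter_upwards [h1.eventually W.fac] with z hz
    rw [sh_pt]
    exact hz

/-- ROW E1-COORD: it suffices to treat germs whose discriminant does not vanish identically on the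
line `x = 0`. -/
theorem e1_of_good (H : ∀ (f : (Fin 3 → ℂ) → ℂ) (μ n : ℕ) (P : ℂ × ℂ → ℂ[X])
    (v : ℂ × (ℂ × ℂ) → ℂ), Hol f → f 0 = 0 → Milnor f μ → Reg3 f → WD f n P v →
    (∃ᶠ y in 𝓝 (0 : ℂ), disc n P (0, y) ≠ 0) → ¬ LC f →
    ∃ (m A : ℕ) (e e' : (Fin 3 → ℂ) → ℂ), E1Data f m A e e') : E1Stmt := by
  intro f μ hf hf0 hμ hreg hlc
  have hreg' : ∃ᶠ x : ℂ in 𝓝 0, f (pt 0 x) ≠ 0 := hreg
  obtain ⟨n, P, v, W⟩ := H707.exists_WD hf hreg'
  obtain ⟨c, hc⟩ := exists_line W.analyticAt_disc (W.disc_frequently hf hμ)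
  obtain ⟨m, A, e, e', hE⟩ := H (fun x => f (sh c x)) μ n (fun p => P (sh2 c p))
    (fun z => v (z.1, sh2 c z.2)) (hol_sh c hf) (by simpa using hf0) (milnor_sh c hf hμ)
    (hreg.mono fun z hz => by
      have : sh c ![0, 0, z] = ![0, 0, z] := by
        rw [sh_apply]
        funext i
        fin_cases i <;> simp
      change f (sh c ![0, 0, z]) ≠ 0
      rw [this]
      exact hz)
    (wd_sh c W)
    (hc.mono fun y hy => by
      have h1 : disc n (fun p => P (sh2 c p)) (0, y) = disc n P (sh2 c (0, y)) := rfl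
      rw [h1]
      simpa [sh2] using hy)
    (fun h => hlc (lc_of_sh c h))
  exact ⟨m, A, _, _, e1Data_of_sh c hE⟩

end Vale.Agent.P298.H868.Coord
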