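import Vale.Agent.P298.H868.Sf
import Vale.Agent.P298.H928.NdT
import Vale.Agent.P298.H928.SurfT

/-!
# The first coordinate on the surface over a tree
-/

set_option linter.style.haveILetI false

noncomputable section

namespace Vale.Agent.P298.H868.Xf

open Filter Topology Polynomial Vale.Agent.P298 Vale.Agent.P298.H707 Vale.Agent.P298.H928
open Vale.Agent.P298.H416 (Om Ta Surf pwOm)
open Vale.Agent.P298.H701 (ser2)

variable {K R : Type} [Field K] [Algebra ℂ K] [Algebra L0 K] [IsScalarTower ℂ L0 K]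
  [FiniteDimensional L0 K] [Algebra.IsSeparable L0 K] [CommRing R] [Algebra ℂ R] [Algebra R K]
  [IsScalarTower ℂ R K]

variable {f : (Fin 3 → ℂ) → ℂ} {n : ℕ} {P : ℂ × ℂ → ℂ[X]} {v : ℂ × (ℂ × ℂ) → ℂ}
    {T : Tree fun p => p.1 * disc n P p} {ζ : PlT T → Fin n → ℂ × ℂ → ℂ}
    {σ ρ : PlT T → Equiv.Perm (Fin n)}

/-- exponents of the first coordinate -/
theorem exists_mono (p : PlT T) : ∃ ab : ℕ × ℕ, MonU (fun q => (ThT T p q).1) ab.1 ab.2 := by
  obtain ⟨a, b, h⟩ := monU_x T p.1.2 p.2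
  exact ⟨(a, b), h⟩

theorem monU_unique {g : ℂ × ℂ → ℂ} {a b a' b' : ℕ} (h : MonU g a b) (h' : MonU g a' b') :
    a = a' ∧ b = b' := by
  have h1 := H701.MonU.lam_sA h
  have h2 := H701.MonU.lam_sA h'
  rw [h1, Prod.mk.injEq] at h2
  exact ⟨by exact_mod_cast h2.1, by exact_mod_cast h2.2⟩

/-- the trivial monodromy around `x = 0` -/
theorem rho_eq_one_T (J : JungT f n P v T ζ σ ρ) (hDy : ∃ᶠ y in 𝓝 (0 : ℂ), disc n P (0, y) ≠ 0)
    (p : PlT T) (hp : p.2 :: p.1.1 ∉ T.C ∧ ¬ exc (p.2 :: p.1.1)) {a b : ℕ}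
    (hx : MonU (fun q => (ThT T p q).1) a b) (hb : 0 < b) : ρ p = 1 :=
  rho_eq_one_of_x J.M.W (J.M.an p) (J.M.zero p) hDy hx hb
    ((off_axes T p.1.2 p.2).mono fun _ h h1 h2 => (h h1 h2).2)
    (T.Th_snd_ne_zero p.1.2 hp.1 hp.2) (J.M.C p)

theorem mono_X0 (p : PlT T) {a b : ℕ} (h : MonU (fun q => (ThT T p q).1) a b) :
    ∃ U : R2, IsUnit U ∧ T.thL p.1.2 p.2 1 one_ne_zero (algebraMap R2 Om (MvPowerSeries.X 0)) =
      algebraMap R2 Om (MvPowerSeries.X 0 ^ a * MvPowerSeries.X 1 ^ b * U) := by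
  obtain ⟨U, hU, h1⟩ := (H701.monU_iff h.analyticAt a b).1 h
  refine ⟨U, hU, ?_⟩
  have h2 := T.thL_algebraMap p.1.2 p.2 1 one_ne_zero (MvPowerSeries.X 0)
  refine h2.trans ?_
  rw [← h1, ← H701.ser2_fst, T.thR_ser2 p.1.2 p.2 1 one_ne_zero analyticAt_fst]
  simp only [pow_one]
  rfl

/-- **the first coordinate on the surface.** -/
def xdT (J : JungT f n P v T ζ σ ρ) (hDy : ∃ᶠ y in 𝓝 (0 : ℂ), disc n P (0, y) ≠ 0)
    (N : ℕ) (hN : 0 < N) (split) (hR) (inj)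
    (hemb : ∀ p : PlT T, Nonempty
      ((surfT (K := K) (R := R) T (JungT.H0 n P) N hN (ndT T) ndT_symm ndT_ne ndT_fin
        (fun _ _ h => ndT_iff.1 h) split hR inj).Emb p))
    (hst : ∀ p : PlT T, ρ p = 1 → ∀ (ψ :
      (surfT (K := K) (R := R) T (JungT.H0 n P) N hN (ndT T) ndT_symm ndT_ne ndT_fin
        (fun _ _ h => ndT_iff.1 h) split hR inj).Emb p) (z : K), z ≠ 0 →
        (N : ℤ) ∣ Ta.lam (ψ.f z)) :
    (surfT (K := K) (R := R) T (JungT.H0 n P) N hN (ndT T) ndT_symm ndT_ne ndT_fin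
        (fun _ _ h => ndT_iff.1 h) split hR inj).XD (algebraMap R2 Om (MvPowerSeries.X 0)) where
  a p := (exists_mono (T := T) p).choose.1
  b p := (exists_mono (T := T) p).choose.2
  mono p := mono_X0 p (exists_mono (T := T) p).choose_spec
  a_pos p := monU_x_pos T (exists_mono (T := T) p).choose_spec
  stab p hp hb ψ z hz := by
    refine hst p ?_ ψ z hz
    exact rho_eq_one_T J hDy p (ndT_none.1 hp) (exists_mono (T := T) p).choose_spec hb
  ex := by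
    obtain ⟨w, hw, d, h1, h2, a, b, hb, hm⟩ := exists_x_place T
    refine ⟨(⟨w, hw⟩, d), ndT_none.2 ⟨h1, h2⟩, ?_, hemb _⟩
    have h3 := monU_unique (exists_mono (T := T) (⟨w, hw⟩, d)).choose_spec hm
    exact lt_of_lt_of_eq hb h3.2.symm

end Vale.Agent.P298.H868.Xf
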