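import Vale.Agent.P298.H868.Xm

/-!
# E1: the rescaling action on the roots, the orders of `x`, the maximal ideal in the charts
-/

noncomputable section

namespace Vale.Agent.P298.H868.Xf

open Filter Topology Polynomial Vale.Agent.P298 Vale.Agent.P298.H707
open Vale.Agent.P298.H471 (RV cl)
open Vale.Agent.P298.H983 (omg)
open Vale.Agent.P298.H379 (pt)
open Vale.Agent.P298.H701 (ser2 rsc sA sB lam chH)

section rescaling

variable {n K : ℕ} {P : ℂ × ℂ → ℂ[X]} {Θ : ℂ × ℂ → ℂ × ℂ} {ζ : Fin n → ℂ × ℂ → ℂ}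
    {σ ρ : Equiv.Perm (Fin n)}

theorem mon1_pow (C : CR P Θ n K ζ σ ρ) (i : ℕ) :
    ∀ᶠ q : ℂ × ℂ in 𝓝 0, ∀ l, ζ l (omg K ^ i * q.1, q.2) = ζ ((σ ^ i) l) q := by
  induction i with
  | zero => exact .of_forall fun q l => by simp
  | succ i ih =>
    have hc : Tendsto (fun q : ℂ × ℂ => ((omg K * q.1, q.2) : ℂ × ℂ)) (𝓝 0) (𝓝 0) := by
      have : Continuous fun q : ℂ × ℂ => ((omg K * q.1, q.2) : ℂ × ℂ) := by fun_prop
      refine this.tendsto' 0 0 ?_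
      simp
    filter_upwards [hc.eventually ih, C.mon1] with q h1 h2 l
    have h3 := h1 l
    have h4 := h2 ((σ ^ i) l)
    rw [pow_succ, mul_assoc, h3, h4, pow_succ', Equiv.Perm.mul_apply]

theorem mon2_pow (C : CR P Θ n K ζ σ ρ) (j : ℕ) :
    ∀ᶠ q : ℂ × ℂ in 𝓝 0, ∀ l, ζ l (q.1, omg K ^ j * q.2) = ζ ((ρ ^ j) l) q := by
  induction j with
  | zero => exact .of_forall fun q l => by simp
  | succ i ih =>
    have hc : Tendsto (fun q : ℂ × ℂ => ((q.1, omg K * q.2) : ℂ × ℂ)) (𝓝 0) (𝓝 0) := by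
      have : Continuous fun q : ℂ × ℂ => ((q.1, omg K * q.2) : ℂ × ℂ) := by fun_prop
      refine this.tendsto' 0 0 ?_
      simp
    filter_upwards [hc.eventually ih, C.mon2] with q h1 h2 l
    have h3 := h1 l
    have h4 := h2 ((ρ ^ i) l)
    rw [pow_succ, mul_assoc, h3, h4, pow_succ', Equiv.Perm.mul_apply]

theorem mon_pow (C : CR P Θ n K ζ σ ρ) (i j : ℕ) :
    ∀ᶠ q : ℂ × ℂ in 𝓝 0, ∀ l,
      ζ l (omg K ^ i * q.1, omg K ^ j * q.2) = ζ ((σ ^ i * ρ ^ j) l) q := by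
  have hc : Tendsto (fun q : ℂ × ℂ => ((omg K ^ i * q.1, q.2) : ℂ × ℂ)) (𝓝 0) (𝓝 0) := by
    have : Continuous fun q : ℂ × ℂ => ((omg K ^ i * q.1, q.2) : ℂ × ℂ) := by fun_prop
    refine this.tendsto' 0 0 ?_
    simp
  filter_upwards [hc.eventually (mon2_pow C j), mon1_pow C i] with q h1 h2 l
  have h3 := h1 l
  have h4 := h2 ((ρ ^ j) l)
  rw [h3, h4, Equiv.Perm.mul_apply]

/-- **the rescaling action on the roots.** -/
theorem rsc_root (C : CR P Θ n K ζ σ ρ) (i j : ℕ) (l : Fin n) :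
    rsc (omg K ^ i) (omg K ^ j) (ser2 (ζ l)) = ser2 (ζ ((σ ^ i * ρ ^ j) l)) := by
  rw [H701.rsc_ser2 _ _ (C.hol l)]
  refine H701.ser2_congr ?_
  filter_upwards [mon_pow C i j] with q hq
  exact hq l

/-- every root of unity is a power of `omg K`. -/
theorem exists_omg_pow {K : ℕ} (hK : K ≠ 0) {ω : ℂ} (hω : ω ^ K = 1) :
    ∃ i < K, omg K ^ i = ω := by
  have : NeZero K := ⟨hK⟩
  have hp : IsPrimitiveRoot (omg K) K := Complex.isPrimitiveRoot_exp K hK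
  exact hp.eq_pow_of_pow_eq_one hω

/-- if `ρ = 1` then the rescaling of the second coordinate fixes the roots. -/
theorem rsc_root_of_rho (C : CR P Θ n K ζ σ ρ) (hρ : ρ = 1) {ω : ℂ} (hω : ω ^ K = 1)
    (l : Fin n) : rsc 1 ω (ser2 (ζ l)) = ser2 (ζ l) := by
  obtain ⟨j, -, rfl⟩ := exists_omg_pow C.hK hω
  have h := rsc_root C 0 j l
  rw [pow_zero, hρ, one_pow, pow_zero, mul_one, Equiv.Perm.one_apply] at h
  exact h

end rescaling

section model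

variable {f : (Fin 3 → ℂ) → ℂ} {κ : Type*} {Θ : κ → ℂ × ℂ → ℂ × ℂ} {n : ℕ}
    {P : ℂ × ℂ → ℂ[X]} {v : ℂ × (ℂ × ℂ) → ℂ} {K : κ → ℕ} {ζ : κ → Fin n → ℂ × ℂ → ℂ}
    {σ ρ : κ → Equiv.Perm (Fin n)}

/-- the first axis of a chart is contracted. -/
theorem ch_axis (M : Model f Θ n P v K ζ σ ρ) (i : κ) (l : Fin n)
    (hexc : ∀ᶠ t : ℂ in 𝓝 0, Θ i (0, t) = 0) : ∀ᶠ b in 𝓝 (0 : ℂ), M.ch i l (0, b) = 0 := by
  have hK := (M.C i).hK
  have h2 : Tendsto (fun t : ℂ => t ^ K i) (𝓝 0) (𝓝 0) := by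
    have := (continuous_pow (K i)).tendsto (0 : ℂ)
    rwa [zero_pow hK] at this
  filter_upwards [(M.C i).root_zero M.W.zero hexc, h2.eventually hexc] with b h3 h4
  show pt (Θ i ((0 : ℂ) ^ K i, b ^ K i)) (ζ i l (0, b)) = 0
  rw [zero_pow hK, h4, h3 l, pt_zero]

/-- the homomorphism of a chart on the local ring of the surface. -/
def psiR (M : Model f Θ n P v K ζ σ ρ) (i : κ) (l : Fin n) :
    RV f →ₐ[ℂ] MvPowerSeries (Fin 2) ℂ :=
  Ideal.Quotient.liftₐ _ (chH (M.ch i l) (M.an_ch i l) (M.ch_zero i l)) (fun a ha => by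
    obtain ⟨c, rfl⟩ := Ideal.mem_span_singleton'.1 ha
    rw [map_mul, H701.chH_eq_zero _ _ M.hf (M.f_ch i l), mul_zero])

theorem psiR_mk (M : Model f Θ n P v K ζ σ ρ) (i : κ) (l : Fin n) (g : MvPowerSeries (Fin 3) ℂ) :
    psiR M i l (Ideal.Quotient.mk _ g) = chH (M.ch i l) (M.an_ch i l) (M.ch_zero i l) g := rfl

theorem psiR_cl (M : Model f Θ n P v K ζ σ ρ) (i : κ) (l : Fin n) {h : (Fin 3 → ℂ) → ℂ}
    (hh : Hol h) : psiR M i l (cl f h) = ser2 fun q => h (M.ch i l q) := by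
  rw [cl, psiR_mk, H701.chH_ser _ _ hh]

/-- (X4) -/
theorem X0_dvd_psiR (M : Model f Θ n P v K ζ σ ρ) (i : κ) (l : Fin n)
    (hexc : ∀ᶠ t : ℂ in 𝓝 0, Θ i (0, t) = 0) {h : RV f} (hh : h ∈ mm f) :
    MvPowerSeries.X 0 ∣ psiR M i l h := by
  obtain ⟨g, h1, rfl⟩ :=
    (Ideal.mem_map_iff_of_surjective _ Ideal.Quotient.mk_surjective).1 hh
  rw [psiR_mk]
  exact X0_dvd_chH _ _ (ch_axis M i l hexc) (constantCoeff_of_mem h1)

/-- the class of the first coordinate. -/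
def xR (f : (Fin 3 → ℂ) → ℂ) : RV f := Ideal.Quotient.mk _ (MvPowerSeries.X 0)

theorem xR_eq (f : (Fin 3 → ℂ) → ℂ) : xR f = cl f fun x => x 0 := by
  rw [cl, H766.ser_coord]
  rfl

theorem psiR_x (M : Model f Θ n P v K ζ σ ρ) (i : κ) (l : Fin n) :
    psiR M i l (xR f) = ser2 fun q => (Θ i (q.1 ^ K i, q.2 ^ K i)).1 := by
  rw [xR_eq, psiR_cl M i l (H701.hol_coord 0)]
  rfl

/-- the orders of `x` in a chart. -/
theorem lamA_x (M : Model f Θ n P v K ζ σ ρ) (i : κ) (l : Fin n) {p r : ℕ}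
    (hx : MonU (fun q => (Θ i q).1) p r) :
    lam (sA (psiR M i l (xR f))) = (((K i * p : ℕ) : ℤ), ((K i * r : ℕ) : ℤ)) := by
  rw [psiR_x]
  exact H701.MonU.lam_sA (hx.comp_pow (M.C i).hK)

theorem lamB_x (M : Model f Θ n P v K ζ σ ρ) (i : κ) (l : Fin n) {p r : ℕ}
    (hx : MonU (fun q => (Θ i q).1) p r) :
    lam (sB (psiR M i l (xR f))) = (((K i * r : ℕ) : ℤ), ((K i * p : ℕ) : ℤ)) := by
  rw [psiR_x]
  exact H701.MonU.lam_sB (hx.comp_pow (M.C i).hK)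

end model

end Vale.Agent.P298.H868.Xf
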