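import Vale.Agent.P298.H868.Xm2
import Vale.Agent.P298.H701.Srf3
import Vale.Agent.P298.H416.Om4

/-!
# E1: the orders of the elements of the field of the surface and the monodromy
-/

noncomputable section

namespace Vale.Agent.P298.H868.Xf

open Filter Topology Polynomial Vale.Agent.P298 Vale.Agent.P298.H707
open Vale.Agent.P298.H983 (omg omg_ne_zero)
open Vale.Agent.P298.H701 (ser2 rsc sA sB lam chH psiC rscL LL2 KF PL)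
open Vale.Agent.P298.H416 (Om Ta rsOm rsOm_val)

theorem rscL_eq (ξ ζ : ℂˣ) : rscL (ξ : ℂ) (ζ : ℂ) ξ.ne_zero ζ.ne_zero = rsOm ξ ζ := rfl

/-- the orders of a fixed element of a rotation. -/
theorem mul_zpow_of_fix {ξ ζ : ℂˣ} {z : Om} (hz : z ≠ 0) (h : rsOm ξ ζ z = z) :
    (ξ : ℂ) ^ Ta.v z * (ζ : ℂ) ^ Ta.lam z = 1 := by
  have h1 := (rsOm_val ξ ζ hz).2.2
  rw [h] at h1
  have h2 := Ta.lc_ne z hz
  have h3 : 1 * Ta.lc z = ((ξ : ℂ) ^ Ta.v z * (ζ : ℂ) ^ Ta.lam z) * Ta.lc z := by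
    rw [one_mul]
    exact h1
  exact (mul_right_cancel₀ h2 h3).symm

section chart

variable {f : (Fin 3 → ℂ) → ℂ} {n : ℕ} {P : ℂ × ℂ → ℂ[X]} {v : ℂ × (ℂ × ℂ) → ℂ}
  [Fact (Irreducible (PL n P))] {Θ : ℂ × ℂ → ℂ × ℂ} {K : ℕ} {ζ : Fin n → ℂ × ℂ → ℂ}
  {σ ρ : Equiv.Perm (Fin n)}

theorem rsOm_psiC_fst (W : WD f n P v) (Z : CR P Θ n K ζ σ ρ) (hΘ : AnalyticAt ℂ Θ 0)
    (h0 : Θ 0 = 0) (hJ : ∃ᶠ q in 𝓝 (0 : ℂ × ℂ), jacP Θ q ≠ 0) (l : Fin n) (h : KF n P) :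
    rsOm (Units.mk0 _ (omg_ne_zero K)) 1 (psiC W Z hΘ h0 hJ l h) =
      psiC W Z hΘ h0 hJ (σ l) h :=
  congrArg (fun φ : KF n P →+* LL2 => φ h) (H701.rscL_psiC_fst W Z hΘ h0 hJ l)

theorem rsOm_psiC_snd (W : WD f n P v) (Z : CR P Θ n K ζ σ ρ) (hΘ : AnalyticAt ℂ Θ 0)
    (h0 : Θ 0 = 0) (hJ : ∃ᶠ q in 𝓝 (0 : ℂ × ℂ), jacP Θ q ≠ 0) (l : Fin n) (h : KF n P) :
    rsOm 1 (Units.mk0 _ (omg_ne_zero K)) (psiC W Z hΘ h0 hJ l h) =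
      psiC W Z hΘ h0 hJ (ρ l) h :=
  congrArg (fun φ : KF n P →+* LL2 => φ h) (H701.rscL_psiC_snd W Z hΘ h0 hJ l)

/-- the group of the monodromy acts on the embeddings. -/
theorem rsOm_psiC (W : WD f n P v) (Z : CR P Θ n K ζ σ ρ) (hΘ : AnalyticAt ℂ Θ 0)
    (h0 : Θ 0 = 0) (hJ : ∃ᶠ q in 𝓝 (0 : ℂ × ℂ), jacP Θ q ≠ 0) (i j : ℕ) (l : Fin n) (h : KF n P) :
    rsOm ((Units.mk0 _ (omg_ne_zero K)) ^ i) ((Units.mk0 _ (omg_ne_zero K)) ^ j)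
      (psiC W Z hΘ h0 hJ l h) = psiC W Z hΘ h0 hJ ((σ ^ i * ρ ^ j) l) h := by
  induction j with
  | zero =>
    induction i with
    | zero =>
      rw [pow_zero, pow_zero, pow_zero, mul_one, Equiv.Perm.one_apply]
      exact H416.rsOm_one _
    | succ i ih =>
      rw [pow_succ', pow_zero]
      rw [pow_zero] at ih
      have h1 := H416.rsOm_mul (Units.mk0 _ (omg_ne_zero K)) 1
        ((Units.mk0 _ (omg_ne_zero K)) ^ i) 1 (psiC W Z hΘ h0 hJ l h)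
      rw [mul_one] at h1
      rw [h1, ih, rsOm_psiC_fst, pow_zero, mul_one, mul_one, pow_succ', Equiv.Perm.mul_apply]
  | succ j ih =>
    have h1 := H416.rsOm_mul 1 (Units.mk0 _ (omg_ne_zero K))
      ((Units.mk0 _ (omg_ne_zero K)) ^ i) ((Units.mk0 _ (omg_ne_zero K)) ^ j)
      (psiC W Z hΘ h0 hJ l h)
    rw [one_mul, ← pow_succ'] at h1
    rw [h1, ih, rsOm_psiC_snd]
    have hc : ρ * (σ ^ i * ρ ^ j) = σ ^ i * ρ ^ (j + 1) := by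
      have h2 : Commute σ ρ := Z.comm
      rw [← mul_assoc, (h2.pow_left i).eq.symm, mul_assoc, pow_succ']
    rw [← Equiv.Perm.mul_apply, hc]

/-- elements of the stabiliser give congruences for the orders. -/
theorem dvd_of_stab (W : WD f n P v) (Z : CR P Θ n K ζ σ ρ) (hΘ : AnalyticAt ℂ Θ 0)
    (h0 : Θ 0 = 0) (hJ : ∃ᶠ q in 𝓝 (0 : ℂ × ℂ), jacP Θ q ≠ 0) {i j : ℕ} {l : Fin n}
    (hl : (σ ^ i * ρ ^ j) l = l) {h : KF n P} (hh : h ≠ 0) :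
    (K : ℤ) ∣ i * Ta.v (psiC W Z hΘ h0 hJ l h) + j * Ta.lam (psiC W Z hΘ h0 hJ l h) := by
  have h1 := rsOm_psiC W Z hΘ h0 hJ i j l h
  rw [hl] at h1
  have h2 := mul_zpow_of_fix ((_root_.map_ne_zero _).2 hh) h1
  have hp : IsPrimitiveRoot (omg K) K := Complex.isPrimitiveRoot_exp K Z.hK
  refine (hp.zpow_eq_one_iff_dvd _).1 ?_
  rw [← h2, Units.val_pow_eq_pow_val, Units.val_pow_eq_pow_val, Units.val_mk0,
    zpow_add₀ (omg_ne_zero K), zpow_mul, zpow_mul, zpow_natCast, zpow_natCast]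

/-- (X3) if `ρ = 1` then the second orders are divisible by `K`. -/
theorem dvd_lam_of_rho (W : WD f n P v) (Z : CR P Θ n K ζ σ ρ) (hΘ : AnalyticAt ℂ Θ 0)
    (h0 : Θ 0 = 0) (hJ : ∃ᶠ q in 𝓝 (0 : ℂ × ℂ), jacP Θ q ≠ 0) (hρ : ρ = 1) (l : Fin n)
    {h : KF n P} (hh : h ≠ 0) : (K : ℤ) ∣ Ta.lam (psiC W Z hΘ h0 hJ l h) := by
  have h1 := dvd_of_stab W Z hΘ h0 hJ (i := 0) (j := 1) (l := l) (by simp [hρ]) hh
  simpa using h1

end chart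

/-- the ramification at a free place of the curve `x = 0`: `e1 = e2 = N`. -/
theorem e_eq {𝒦 κ : Type*} [Field 𝒦] [Field κ] {O : ValuationSubring 𝒦} {v : 𝒦 → ℤ}
    {ρ : H416.Res O κ} (hρ : Function.Surjective ρ.ρ) (hv : H416.NOrd O v)
    {Pl : ValuationSubring κ} {w : κ → ℤ} (hw : H416.NOrd Pl w) {lam : 𝒦 → ℤ} {e1 e2 N : ℤ}
    (he1 : 0 < e1) (he2 : 0 < e2) (hN : 0 < N) (hdvd : ∀ z, z ≠ 0 → N ∣ lam z)
    (hres : ∀ z : O, (z : 𝒦) ≠ 0 → v z = 0 → lam z = e1 * w (ρ.ρ z))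
    (h2 : ∀ z, z ≠ 0 → e2 ∣ lam z) (h2' : ∃ z, z ≠ 0 ∧ lam z = e2)
    (ht : ∃ t, t ≠ 0 ∧ v t = 0 ∧ lam t = N) : e1 = N ∧ e2 = N := by
  obtain ⟨t, ht0, htv, htl⟩ := ht
  obtain ⟨π, hπ⟩ := hw.one
  obtain ⟨z, hz⟩ := hρ π
  have hπ0 : π ≠ 0 := by
    rintro rfl
    rw [hw.zero] at hπ
    exact zero_ne_one hπ
  have hz0 : (z : 𝒦) ≠ 0 := by
    intro h
    have h1 : z = 0 := Subtype.ext h
    rw [h1, map_zero] at hz
    exact hπ0 hz.symm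
  have hvz : v z = 0 := by
    have h1 : ¬ O.valuation (z : 𝒦) < 1 := by
      rw [← ρ.ker, hz]
      exact hπ0
    rw [hv.val_lt_one hz0] at h1
    have h3 := ((hv.mem _).1 z.2).resolve_left hz0
    omega
  have hlz := hres z hz0 hvz
  rw [hz, hπ, mul_one] at hlz
  have ht1 : t ∈ O := (hv.mem _).2 (Or.inr htv.ge)
  have hlt := hres ⟨t, ht1⟩ ht0 htv
  obtain ⟨y, hy0, hy⟩ := h2'
  constructor
  · refine Int.dvd_antisymm he1.le hN.le ⟨_, htl.symm.trans hlt⟩ ?_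
    rw [← hlz]
    exact hdvd z hz0
  · refine Int.dvd_antisymm he2.le hN.le ?_ ?_
    · rw [← htl]
      exact h2 t ht0
    · rw [← hy]
      exact hdvd y hy0

end Vale.Agent.P298.H868.Xf
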