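import Vale.Agent.P298.H416.Surf4
import Vale.Agent.P298.H868.Xr

/-!
# Surfaces: finiteness of the ramification, the first coordinate
-/

set_option linter.style.haveILetI false

noncomputable section

namespace Vale.Agent.P298.H416

open Vale.Agent.P298.FF Vale.Agent.P298.H400

namespace Surf

variable {L K R : Type} [Field L] [Algebra ℂ L] [Field K] [Algebra ℂ K] [Algebra L K]
    [IsScalarTower ℂ L K] [FiniteDimensional L K] [Algebra.IsSeparable L K]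
    [CommRing R] [Algebra ℂ R] [Algebra R K] [IsScalarTower ℂ R K]
    (S : Surf L K R)

theorem down_dof (q : S.Q) :
    H400.down (κ0 := IsLocalRing.ResidueField (S.W q.1.1)) q.2 = (S.line q.1.1).Q (S.dof q) :=
  (S.psq_sees q).down'

theorem dof_fin (i : S.I) (d : Option ℂ) :
    {P : Plk ℂ (IsLocalRing.ResidueField i.2.val) | S.dof ⟨i, P⟩ = d}.Finite := by
  obtain ⟨x, hx0, hx⟩ := exists_unif ((S.line i.1).Q d)
  have hx' : algebraMap (IsLocalRing.ResidueField (S.W i.1))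
      (IsLocalRing.ResidueField i.2.val) x ≠ 0 := by
    rwa [Ne, map_eq_zero]
  refine (dv_finite (k := ℂ) hx').subset ?_
  intro P hP
  obtain ⟨e, he, h⟩ := exists_ram (κ0 := IsLocalRing.ResidueField (S.W i.1)) P
  have h1 : H400.down (κ0 := IsLocalRing.ResidueField (S.W i.1)) P = (S.line i.1).Q (S.dof ⟨i, P⟩) :=
    S.down_dof ⟨i, P⟩
  have hP' : S.dof ⟨i, P⟩ = d := hP
  show ord P _ ≠ 0
  rw [h x, h1, hP', hx, mul_one]
  exact_mod_cast he.ne'

/-- the second order of an element of the base. -/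
theorem lam_alg (q : S.Q) (a : L) :
    S.lam q (algebraMap L K a) = S.N * Ta.lam (S.θ (S.cht q) a) := by
  rw [lam, (S.psq q).comm, phi_lam]

/-- field `lam_fin` of `CModel`. -/
theorem lam_fin (i : S.I) : ∃ z : K, S.vv i z ≠ 0 ∧
    {P : Plk ℂ (IsLocalRing.ResidueField i.2.val) | S.lam ⟨i, P⟩ z ≠ 0}.Finite := by
  obtain ⟨a, ha, hfin⟩ := S.ac i.1
  refine ⟨algebraMap L K a, ?_, ?_⟩
  · rw [S.vv_alg]
    exact mul_ne_zero (by exact_mod_cast (S.ram_pos i).ne') ha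
  · have h1 : (⋃ d ∈ {d | Ta.lam (S.θ (i.1, d) a) ≠ 0},
        {P : Plk ℂ (IsLocalRing.ResidueField i.2.val) | S.dof ⟨i, P⟩ = d}).Finite :=
      hfin.biUnion fun d _ => S.dof_fin i d
    refine h1.subset ?_
    intro P hP
    simp only [Set.mem_iUnion]
    refine ⟨S.dof ⟨i, P⟩, ?_, rfl⟩
    intro h
    apply hP
    rw [S.lam_alg]
    have h2 : Ta.lam (S.θ (S.cht ⟨i, P⟩) a) = 0 := h
    rw [h2, mul_zero]

theorem lam_zpow (q : S.Q) {z : K} (hz : z ≠ 0) (n : ℤ) : S.lam q (z ^ n) = n * S.lam q z := by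
  rw [lam, map_zpow₀]
  exact Ta.lam_zpow (by rwa [Ne, map_eq_zero]) n

/-- units of a component. -/
theorem lam_unit (q : S.Q) {u : K} (hu : u ≠ 0) (h0 : S.vv q.1 u = 0) :
    ∃ r : IsLocalRing.ResidueField q.1.2.val, r ≠ 0 ∧ S.lam q u = S.e1 q * ord q.2 r := by
  have hm : u ∈ q.1.2.val := ((S.hvv q.1).mem u).2 (Or.inr h0.ge)
  refine ⟨IsLocalRing.residue _ ⟨u, hm⟩, ?_, S.lam_res q ⟨u, hm⟩ hu h0⟩
  rw [Ne, IsLocalRing.residue_eq_zero_iff, ValuationSubring.valuation_lt_one_iff,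
    (S.hvv q.1).val_lt_one hu, h0]
  exact lt_irrefl _

/-- for almost all places the uniformizer of the component has second order zero. -/
theorem exists_unif_fin (i : S.I) : ∃ t : K, t ≠ 0 ∧ S.vv i t = 1 ∧
    {P : Plk ℂ (IsLocalRing.ResidueField i.2.val) | S.lam ⟨i, P⟩ t ≠ 0}.Finite := by
  obtain ⟨z, hz, hfin⟩ := S.lam_fin i
  obtain ⟨t, ht⟩ := (S.hvv i).one
  have ht0 : t ≠ 0 := by
    rintro rfl
    rw [(S.hvv i).zero] at ht
    exact zero_ne_one ht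
  have hz0 : z ≠ 0 := by
    rintro rfl
    exact hz (S.hvv i).zero
  set u : K := z * t ^ (-S.vv i z) with hu
  have hu0 : u ≠ 0 := mul_ne_zero hz0 (zpow_ne_zero _ ht0)
  have hvu : S.vv i u = 0 := by
    rw [hu, (S.hvv i).mul _ _ hz0 (zpow_ne_zero _ ht0), (S.hvv i).zpow, ht]
    ring
  have hm : u ∈ i.2.val := ((S.hvv i).mem u).2 (Or.inr hvu.ge)
  have hr : IsLocalRing.residue i.2.val ⟨u, hm⟩ ≠ 0 := by
    rw [Ne, IsLocalRing.residue_eq_zero_iff, ValuationSubring.valuation_lt_one_iff,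
      (S.hvv i).val_lt_one hu0, hvu]
    exact lt_irrefl _
  refine ⟨t, ht0, ht, (hfin.union (dv_finite (k := ℂ) hr)).subset ?_⟩
  intro P hP
  by_contra hcon
  rw [Set.mem_union, not_or] at hcon
  obtain ⟨h1, h2⟩ := hcon
  have h1' : S.lam ⟨i, P⟩ z = 0 := not_not.1 h1
  have h2' : ord P (IsLocalRing.residue i.2.val ⟨u, hm⟩) = 0 := not_not.1 h2
  have h3 : S.lam ⟨i, P⟩ u = 0 := by
    rw [S.lam_res ⟨i, P⟩ ⟨u, hm⟩ hu0 hvu, h2', mul_zero]
  rw [hu, S.lam_mul _ _ _ hz0 (zpow_ne_zero _ ht0), h1', zero_add, S.lam_zpow _ ht0] at h3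
  rcases mul_eq_zero.1 h3 with h4 | h4
  · exact hz (neg_eq_zero.1 h4)
  · exact hP h4

/-- without ramification. -/
theorem e1_eq_of_unif (q : S.Q) {t : K} (ht0 : t ≠ 0) (ht : S.vv q.1 t = 1)
    (hl : S.lam q t = 0) : S.e1 q = S.e2 q := by
  have hd : ∀ y : K, y ≠ 0 → S.e1 q ∣ S.lam q y := by
    intro y hy
    set w : K := y * t ^ (-S.vv q.1 y) with hw
    have hw0 : w ≠ 0 := mul_ne_zero hy (zpow_ne_zero _ ht0)
    have hvw : S.vv q.1 w = 0 := by
      rw [hw, (S.hvv q.1).mul _ _ hy (zpow_ne_zero _ ht0), (S.hvv q.1).zpow, ht]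
      ring
    obtain ⟨r, -, hr⟩ := S.lam_unit q hw0 hvw
    rw [hw, S.lam_mul _ _ _ hy (zpow_ne_zero _ ht0), S.lam_zpow _ ht0, hl, mul_zero,
      add_zero] at hr
    exact ⟨_, hr⟩
  obtain ⟨y, hy0, hy⟩ := (S.mem_lamG q (S.e2 q)).2 dvd_rfl
  refine Int.dvd_antisymm (S.e1_pos q).le (S.e2_pos q).le ?_ (S.e2_dvd_e1 q)
  rw [← hy]
  exact hd y hy0

/-- field `ram_fin` of `CModel`. -/
theorem ram_fin : {q : S.Q | S.nb q = none ∧ S.e1 q ≠ S.e2 q}.Finite := by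
  choose t ht0 ht hfin using fun i => S.exists_unif_fin i
  have h1 : (⋃ i : S.I, (fun P => (⟨i, P⟩ : S.Q)) ''
      {P : Plk ℂ (IsLocalRing.ResidueField i.2.val) | S.lam ⟨i, P⟩ (t i) ≠ 0}).Finite :=
    Set.finite_iUnion fun i => (hfin i).image _
  refine h1.subset ?_
  rintro ⟨i, P⟩ ⟨-, hq⟩
  refine Set.mem_iUnion.2 ⟨i, P, ?_, rfl⟩
  intro h
  exact hq (S.e1_eq_of_unif ⟨i, P⟩ (ht0 i) (ht i) h)

/-! ### the first coordinate -/

/-- the first coordinate in the charts of the plane. -/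
structure XD (xl : L) where
  /-- the exponents. -/
  a : S.V × Option ℂ → ℕ
  b : S.V × Option ℂ → ℕ
  mono : ∀ p, ∃ U : R2, IsUnit U ∧
    S.θ p xl = algebraMap R2 Om (MvPowerSeries.X 0 ^ a p * MvPowerSeries.X 1 ^ b p * U)
  a_pos : ∀ p, 0 < a p
  stab : ∀ p, S.nd p = none → 0 < b p → ∀ (ψ : S.Emb p) (z : K), z ≠ 0 →
    (S.N : ℤ) ∣ Ta.lam (ψ.f z)
  ex : ∃ p, S.nd p = none ∧ 0 < b p ∧ Nonempty (S.Emb p)

variable {S} {xl : L} (X : S.XD xl)

include X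

theorem XD.ord (p : S.V × Option ℂ) : Ta.v (S.θ p xl) = X.a p ∧ Ta.lam (S.θ p xl) = X.b p ∧
    Ta.v (swOm (S.θ p xl)) = X.b p ∧ Ta.lam (swOm (S.θ p xl)) = X.a p := by
  obtain ⟨U, hU, h⟩ := X.mono p
  have h1 := Ta_mono hU (F := MvPowerSeries.X 0 ^ X.a p * MvPowerSeries.X 1 ^ X.b p * U) rfl
  rw [h, swOm_alg]
  exact h1

/-- field `x_pos`. -/
theorem XD.pos (i : S.I) : 0 < S.vv i (algebraMap L K xl) := by
  rw [S.vv_alg, ← S.θ_v (i.1, none), (X.ord _).1]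
  have h1 := X.a_pos (i.1, none)
  have h2 := S.ram_pos i
  positivity

theorem XD.lam_phi (p : S.V × Option ℂ) : Ta.lam (S.phi p xl) = S.N * X.b p := by
  rw [phi_lam, (X.ord p).2.1]

omit X in
theorem nd_of_nb_none {q : S.Q} (h : S.nb q = none) : S.nd (S.cht q) = none := by
  cases h' : S.nd (S.cht q) with
  | none => rfl
  | some p' =>
    rw [nb_some h'] at h
    exact absurd h (by simp)

/-- field `x_node`. -/
theorem XD.node (q q' : S.Q) (h : S.nb q = some q') :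
    S.lam q (algebraMap L K xl) = S.e2 q * S.vv q'.1 (algebraMap L K xl) := by
  rw [e2_node h]
  obtain ⟨p', h', rfl⟩ := nb_data h
  rw [← pl_v, Emb.swE_f, (S.psq q).comm, lam, (S.psq q).comm, X.lam_phi, phi_apply, swOm_pwOm,
    (pwOm_val _ _ _).1, (X.ord _).2.2.1]

/-- `N` at the places of the curve `x = 0`. -/
theorem XD.e_eq (q : S.Q) (h : S.nb q = none) (hl : S.lam q (algebraMap L K xl) ≠ 0) :
    S.e1 q = S.N ∧ S.e2 q = S.N := by
  have hn := nd_of_nb_none h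
  have hb : 0 < X.b (S.cht q) := by
    rw [lam, (S.psq q).comm, X.lam_phi] at hl
    rcases Nat.eq_zero_or_pos (X.b (S.cht q)) with h0 | h0
    · rw [h0] at hl
      exact absurd (by simp) hl
    · exact h0
  have hdvd : ∀ z : K, z ≠ 0 → (S.N : ℤ) ∣ S.lam q z := fun z hz => X.stab _ hn hb (S.psq q) z hz
  obtain ⟨t, ht0, htv, htl⟩ := phi_nd (S.cht q) 0 1
  have ht0' : algebraMap L K t ≠ 0 := by rwa [Ne, map_eq_zero]
  have hv0 : S.vv q.1 (algebraMap L K t) = 0 := by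
    have h1 := S.psq_v q (algebraMap L K t)
    rw [(S.psq q).comm, htv, mul_zero] at h1
    rcases mul_eq_zero.1 h1.symm with h2 | h2
    · exact absurd h2 (S.ka_pos q).ne'
    · exact h2
  have hl0 : S.lam q (algebraMap L K t) = S.N := by
    rw [lam, (S.psq q).comm, htl, mul_one]
  have hNpos : (0 : ℤ) ≤ S.N := by positivity
  obtain ⟨r, -, hr⟩ := S.lam_unit q ht0' hv0
  obtain ⟨z, hz0, -, hz⟩ := S.e1_mem q
  obtain ⟨y, hy0, hy⟩ := (S.mem_lamG q (S.e2 q)).2 dvd_rfl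
  constructor
  · refine Int.dvd_antisymm (S.e1_pos q).le hNpos ⟨_, hl0.symm.trans hr⟩ ?_
    rw [← hz]
    exact hdvd z hz0
  · refine Int.dvd_antisymm (S.e2_pos q).le hNpos ?_ ?_
    · rw [← hl0]
      exact S.e2_dvd q _ ht0'
    · rw [← hy]
      exact hdvd y hy0

/-- field `x_ram`. -/
theorem XD.ram (q : S.Q) (h : S.nb q = none) (he : S.e1 q ≠ S.e2 q) :
    S.lam q (algebraMap L K xl) = 0 := by
  by_contra hl
  obtain ⟨h1, h2⟩ := X.e_eq q h hl
  exact he (h1.trans h2.symm)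

/-- field `x_zero`. -/
theorem XD.zero : ∃ q, S.nb q = none ∧ S.lam q (algebraMap L K xl) ≠ 0 := by
  obtain ⟨p, hp, hb, ⟨ψ⟩⟩ := X.ex
  refine ⟨pl ψ, nb_pl_none ψ hp, ?_⟩
  rw [← pl_lam, ψ.comm, X.lam_phi]
  have h1 := S.hN
  positivity

end Surf

end Vale.Agent.P298.H416
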