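import Vale.Agent.P298.H868.XJ
import Vale.Agent.P298.H928.SurfJ
import Vale.Agent.P298.H701.SurfR

/-!
# The fields of the first coordinate and of the maximal ideal for `surfJ`
-/

set_option linter.style.haveILetI false

noncomputable section

namespace Vale.Agent.P298.H868.Xf

open Filter Topology Polynomial Vale.Agent.P298 Vale.Agent.P298.H707 Vale.Agent.P298.H928
open Vale.Agent.P298.H416 (Om Ta Surf pwOm)
open Vale.Agent.P298.H701 (ser2 KF PL LL2 psiC liftL tau tau_injective psiC_algebraMap rk)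
open Vale.Agent.P298.H471 (RV cl algRK towRK finDim_KF sep_KF)

variable {f : (Fin 3 → ℂ) → ℂ} {n : ℕ} {P : ℂ × ℂ → ℂ[X]} {v : ℂ × (ℂ × ℂ) → ℂ}
    {T : Tree fun p => p.1 * disc n P p} {ζ : PlT T → Fin n → ℂ × ℂ → ℂ}
    {σ ρ : PlT T → Equiv.Perm (Fin n)} [Fact (Irreducible (PL n P))]

/-- the first coordinate on `surfJ`. -/
def xS (J : JungT f n P v T ζ σ ρ) (hf0 : f 0 = 0)
    (hDy : ∃ᶠ y in 𝓝 (0 : ℂ), disc n P (0, y) ≠ 0) :
    letI := algRK J.M.hf J.M.W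
    haveI := towRK J.M.hf J.M.W
    haveI := finDim_KF J.M.W
    haveI := sep_KF J.M.W
    (surfJ J).XD (algebraMap R2 Om (MvPowerSeries.X 0)) :=
  letI := algRK J.M.hf J.M.W
  haveI := towRK J.M.hf J.M.W
  haveI := finDim_KF J.M.W
  haveI := sep_KF J.M.W
  xdJ J hf0 hDy _ _ _

/-- field `x_pos`. -/
theorem xS_pos (J : JungT f n P v T ζ σ ρ) (hf0 : f 0 = 0)
    (hDy : ∃ᶠ y in 𝓝 (0 : ℂ), disc n P (0, y) ≠ 0) :
    letI := algRK J.M.hf J.M.W
    haveI := towRK J.M.hf J.M.W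
    haveI := finDim_KF J.M.W
    haveI := sep_KF J.M.W
    ∀ i, 0 < (surfJ J).vv i (algebraMap (RV f) (KF n P) (xR f)) := by
  letI := algRK J.M.hf J.M.W
  haveI := towRK J.M.hf J.M.W
  haveI := finDim_KF J.M.W
  haveI := sep_KF J.M.W
  intro i
  rw [algRK_x J.M.hf J.M.W]
  exact (xS J hf0 hDy).pos i

/-- field `x_node`. -/
theorem xS_node (J : JungT f n P v T ζ σ ρ) (hf0 : f 0 = 0)
    (hDy : ∃ᶠ y in 𝓝 (0 : ℂ), disc n P (0, y) ≠ 0) :
    letI := algRK J.M.hf J.M.W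
    haveI := towRK J.M.hf J.M.W
    haveI := finDim_KF J.M.W
    haveI := sep_KF J.M.W
    ∀ q q', (surfJ J).nb q = some q' →
      (surfJ J).lam q (algebraMap (RV f) (KF n P) (xR f)) =
        (surfJ J).e2 q * (surfJ J).vv q'.1 (algebraMap (RV f) (KF n P) (xR f)) := by
  letI := algRK J.M.hf J.M.W
  haveI := towRK J.M.hf J.M.W
  haveI := finDim_KF J.M.W
  haveI := sep_KF J.M.W
  intro q q' h
  rw [algRK_x J.M.hf J.M.W]
  exact (xS J hf0 hDy).node q q' h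

/-- field `x_ram`. -/
theorem xS_ram (J : JungT f n P v T ζ σ ρ) (hf0 : f 0 = 0)
    (hDy : ∃ᶠ y in 𝓝 (0 : ℂ), disc n P (0, y) ≠ 0) :
    letI := algRK J.M.hf J.M.W
    haveI := towRK J.M.hf J.M.W
    haveI := finDim_KF J.M.W
    haveI := sep_KF J.M.W
    ∀ q, (surfJ J).nb q = none → (surfJ J).e1 q ≠ (surfJ J).e2 q →
      (surfJ J).lam q (algebraMap (RV f) (KF n P) (xR f)) = 0 := by
  letI := algRK J.M.hf J.M.W
  haveI := towRK J.M.hf J.M.W
  haveI := finDim_KF J.M.W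
  haveI := sep_KF J.M.W
  intro q h he
  rw [algRK_x J.M.hf J.M.W]
  exact (xS J hf0 hDy).ram q h he

/-- field `x_zero`. -/
theorem xS_zero (J : JungT f n P v T ζ σ ρ) (hf0 : f 0 = 0)
    (hDy : ∃ᶠ y in 𝓝 (0 : ℂ), disc n P (0, y) ≠ 0) :
    letI := algRK J.M.hf J.M.W
    haveI := towRK J.M.hf J.M.W
    haveI := finDim_KF J.M.W
    haveI := sep_KF J.M.W
    ∃ q, (surfJ J).nb q = none ∧
      (surfJ J).lam q (algebraMap (RV f) (KF n P) (xR f)) ≠ 0 := by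
  letI := algRK J.M.hf J.M.W
  haveI := towRK J.M.hf J.M.W
  haveI := finDim_KF J.M.W
  haveI := sep_KF J.M.W
  rw [algRK_x J.M.hf J.M.W]
  exact (xS J hf0 hDy).zero

/-- field `e1 = e2 = N on x = 0`. -/
theorem xS_e (J : JungT f n P v T ζ σ ρ) (hf0 : f 0 = 0)
    (hDy : ∃ᶠ y in 𝓝 (0 : ℂ), disc n P (0, y) ≠ 0) :
    letI := algRK J.M.hf J.M.W
    haveI := towRK J.M.hf J.M.W
    haveI := finDim_KF J.M.W
    haveI := sep_KF J.M.W
    ∀ q, (surfJ J).nb q = none →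
      (surfJ J).lam q (algebraMap (RV f) (KF n P) (xR f)) ≠ 0 →
        (surfJ J).e1 q = n.factorial ∧ (surfJ J).e2 q = n.factorial := by
  letI := algRK J.M.hf J.M.W
  haveI := towRK J.M.hf J.M.W
  haveI := finDim_KF J.M.W
  haveI := sep_KF J.M.W
  intro q h hl
  rw [algRK_x J.M.hf J.M.W] at hl
  exact (xS J hf0 hDy).e_eq q h hl

/-- field `mm_v`. -/
theorem mmS_v (J : JungT f n P v T ζ σ ρ) :
    letI := algRK J.M.hf J.M.W
    haveI := towRK J.M.hf J.M.W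
    haveI := finDim_KF J.M.W
    haveI := sep_KF J.M.W
    ∀ h ∈ mm f, h ≠ 0 → ∀ i, 1 ≤ (surfJ J).vv i (algebraMap (RV f) (KF n P) h) := by
  letI := algRK J.M.hf J.M.W
  haveI := towRK J.M.hf J.M.W
  haveI := finDim_KF J.M.W
  haveI := sep_KF J.M.W
  intro h hh h0 i
  refine H701.SurfR.mm_v' i h0 fun p ψ => ?_
  obtain ⟨l, rfl⟩ := EJ_surj J p ψ
  obtain ⟨g, hg, rfl⟩ :=
    (Ideal.mem_map_iff_of_surjective _ Ideal.Quotient.mk_surjective).1 hh
  refine ⟨_, psJ_rk J p l g, ?_⟩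
  exact X0_dvd_chH _ _ (ch_axis J.M p l (.of_forall fun t => JungT.exc T p t))
    (constantCoeff_of_mem hg)

end Vale.Agent.P298.H868.Xf
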