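import Vale.Agent.P298.H707.Glue6
import Vale.Agent.P298.H928.Th2

/-!
# E1: the first coordinate `x` in the charts, the places on the curve `x = 0`
-/

namespace Vale.Agent.P298.H868.Xf

open Filter Topology Metric Set Polynomial Vale.Agent.P298 Vale.Agent.P298.H707
open Vale.Agent.P298.H928 (psi exc phi Tree MU)
open Vale.Agent.P298.H983 (omg)

/-- a germ without zeros off the axes is a monomial times a unit -/
theorem monU_of_ne {g : ℂ × ℂ → ℂ} (hg : AnalyticAt ℂ g 0)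
    (hne : ∀ᶠ q in 𝓝 (0 : ℂ × ℂ), q.1 ≠ 0 → q.2 ≠ 0 → g q ≠ 0) : ∃ i j, MonU g i j := by
  obtain ⟨A, hA, hb⟩ := Metric.eventually_nhds_iff_ball.1 (hg.eventually_analyticAt.and hne)
  have hmem : ∀ q ∈ ball (0 : ℂ) A ×ˢ ball (0 : ℂ) A, q ∈ ball (0 : ℂ × ℂ) A := by
    intro q hq
    rw [mem_ball_zero_iff, Prod.norm_def]
    exact max_lt (by simpa using hq.1) (by simpa using hq.2)
  obtain ⟨p, r, u, hu, hu0, h⟩ := H983.exists_monomial hA hA
    (fun q hq => (hb q (hmem q hq)).1.differentiableAt.differentiableWithinAt)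
    (fun q hq => (hb q (hmem q hq)).2)
  exact ⟨p, r, MonU.of_on (isOpen_ball.prod isOpen_ball)
    ⟨mem_ball_self hA, mem_ball_self hA⟩ hu hu0 h⟩

/-- a factor of a monomial times a unit is a monomial times a unit -/
theorem monU_factor {g h : ℂ × ℂ → ℂ} (hg : AnalyticAt ℂ g 0) {i j : ℕ}
    (H : MonU (fun q => g q * h q) i j) : ∃ a b, MonU g a b := by
  refine monU_of_ne hg ?_
  filter_upwards [H.ne_zero] with q hq h1 h2 h3
  exact hq h1 h2 (by simp [h3])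

theorem monU_iff_mu {g : ℂ × ℂ → ℂ} {i j : ℕ} : MonU g i j ↔ MU g i j := Iff.rfl

/-- (X1) if the second axis of the chart is the curve `x = 0` then the discriminant does not vanish
on it. -/
theorem disc_unit {Θ : ℂ × ℂ → ℂ × ℂ} (hΘ : AnalyticAt ℂ Θ 0) (hΘ0 : Θ 0 = 0)
    {D : ℂ × ℂ → ℂ} (hD : AnalyticAt ℂ D 0) (hDy : ∃ᶠ y in 𝓝 (0 : ℂ), D (0, y) ≠ 0)
    {p r p' r' : ℕ} (hx : MonU (fun q => (Θ q).1) p r) (hr : 0 < r)
    (hd : MonU (fun q => D (Θ q)) p' r') (hne : ∀ᶠ q in 𝓝 (0 : ℂ × ℂ), q.1 ≠ 0 → Θ q ≠ 0) :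
    r' = 0 := by
  by_contra hr'
  have hr' : r' ≠ 0 := hr'
  have hc : Tendsto (fun s : ℂ => ((s, 0) : ℂ × ℂ)) (𝓝 0) (𝓝 0) := by
    have : Continuous fun s : ℂ => ((s, 0) : ℂ × ℂ) := by fun_prop
    exact this.tendsto 0
  obtain ⟨U, -, -, hU⟩ := hx
  obtain ⟨V, -, -, hV⟩ := hd
  have h1 : ∀ᶠ s : ℂ in 𝓝[≠] 0, (Θ (s, 0)).1 = 0 ∧ D (Θ (s, 0)) = 0 ∧ Θ (s, 0) ≠ 0 := by
    filter_upwards [nhdsWithin_le_nhds (hc.eventually hU), nhdsWithin_le_nhds (hc.eventually hV),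
      nhdsWithin_le_nhds (hc.eventually hne), self_mem_nhdsWithin] with s h2 h3 h4 h5
    refine ⟨?_, ?_, h4 h5⟩
    · rw [h2]
      simp [zero_pow hr.ne']
    · rw [h3]
      simp [zero_pow hr']
  -- the analytic function of one variable
  have hD1 : AnalyticAt ℂ (fun y : ℂ => D (0, y)) 0 :=
    hD.comp_of_eq (analyticAt_const.prod analyticAt_id) rfl
  rcases hD1.eventually_eq_zero_or_eventually_ne_zero with h2 | h2
  · exact hDy (h2.mono fun y hy => not_not.2 hy)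
  · have h3 : Tendsto (fun s : ℂ => (Θ (s, 0)).2) (𝓝[≠] 0) (𝓝[≠] 0) := by
      rw [tendsto_nhdsWithin_iff]
      constructor
      · have h4 : Tendsto (fun s : ℂ => (Θ (s, 0)).2) (𝓝 0) (𝓝 0) := by
          have h5 : ContinuousAt (fun q => (Θ q).2) 0 := hΘ.continuousAt.snd
          have h6 : Tendsto (fun q => (Θ q).2) (𝓝 0) (𝓝 0) := by
            have := h5.tendsto
            rwa [hΘ0] at this
          exact h6.comp hc
        exact h4.mono_left nhdsWithin_le_nhds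
      · filter_upwards [h1] with s hs h4
        exact hs.2.2 (Prod.ext hs.1 h4)
    obtain ⟨s, hs1, hs2⟩ := ((h3.eventually h2).and h1).exists
    apply hs1
    have h4 : ((0 : ℂ), (Θ (s, 0)).2) = Θ (s, 0) := Prod.ext hs2.1.symm rfl
    rw [h4]
    exact hs2.2.1

section tree

variable {D : ℂ × ℂ → ℂ} (T : Tree fun q => q.1 * D q)

include T in
theorem off_axes {w : List (Option ℂ)} (hw : w ∈ T.C) (d : Option ℂ) :
    ∀ᶠ q in 𝓝 (0 : ℂ × ℂ), q.1 ≠ 0 → q.2 ≠ 0 → (T.Th w d q).1 ≠ 0 ∧ D (T.Th w d q) ≠ 0 := by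
  obtain ⟨p, r, -, h⟩ := T.mu_Th (by simp) hw d
  have h' : MonU (fun x => (T.Th w d x).1 * D (T.Th w d x)) p r := h
  filter_upwards [h'.ne_zero] with q hq h1 h2
  have h3 := hq h1 h2
  exact ⟨left_ne_zero_of_mul h3, right_ne_zero_of_mul h3⟩

/-- (X0) -/
theorem monU_x {w : List (Option ℂ)} (hw : w ∈ T.C) (d : Option ℂ) :
    ∃ p r, MonU (fun q => (T.Th w d q).1) p r :=
  monU_of_ne (analyticAt_fst.comp (T.analyticAt_Th hw d))
    ((off_axes T hw d).mono fun _ h h1 h2 => (h h1 h2).1)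

theorem monU_D (hD : AnalyticAt ℂ D 0) {w : List (Option ℂ)} (hw : w ∈ T.C) (d : Option ℂ) :
    ∃ p r, MonU (fun q => D (T.Th w d q)) p r :=
  monU_of_ne (hD.comp_of_eq (T.analyticAt_Th hw d) (T.Th_zero hw d))
    ((off_axes T hw d).mono fun _ h h1 h2 => (h h1 h2).2)

/-- the exponent of `x` at the first axis (the curve of the vertex) is positive -/
theorem monU_x_pos {w : List (Option ℂ)} {d : Option ℂ} {p r : ℕ}
    (h : MonU (fun q => (T.Th w d q).1) p r) : 0 < p := by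
  rcases Nat.eq_zero_or_pos p with rfl | hp
  · exfalso
    obtain ⟨U, hU, hU0, h1⟩ := h
    -- points `(0, t)`
    have hc : Tendsto (fun t : ℂ => ((0, t) : ℂ × ℂ)) (𝓝[≠] 0) (𝓝 0) := by
      have : Continuous fun t : ℂ => ((0, t) : ℂ × ℂ) := by fun_prop
      exact (this.tendsto 0).mono_left nhdsWithin_le_nhds
    have h2 : ∀ᶠ q in 𝓝 (0 : ℂ × ℂ), U q ≠ 0 := hU.continuousAt.eventually_ne hU0
    obtain ⟨t, ⟨h3, h4⟩, h5⟩ := ((hc.eventually (h1.and h2)).and self_mem_nhdsWithin).exists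
    have h6 : (0 : ℂ) ^ 0 * t ^ r * U (0, t) = 0 := by
      have h7 : (T.Th w d (0, t)).1 = (0 : ℂ) ^ 0 * t ^ r * U (0, t) := h3
      rw [T.Th_fst_zero] at h7
      exact h7.symm
    rw [pow_zero, one_mul] at h6
    rcases mul_eq_zero.1 h6 with h7 | h7
    · exact pow_ne_zero r h5 h7
    · exact h4 h7
  · exact hp

/-- (X2) there is an end place on the curve `x = 0`. -/
theorem exists_x_place : ∃ w ∈ T.C, ∃ d, d :: w ∉ T.C ∧ ¬ exc (d :: w) ∧
    ∃ p r, 0 < r ∧ MonU (fun q => (T.Th w d q).1) p r := by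
  classical
  have h1 : ∀ (w : List (Option ℂ)) (d : Option ℂ), ∃ δ : ℝ, 0 < δ ∧ (w ∈ T.C → d :: w ∉ T.C →
      ∀ q : ℂ × ℂ, ‖q‖ < δ → (T.Th w d q).1 = 0 → q.1 = 0 ∨
        (q.2 = 0 ∧ ∃ p r, 0 < r ∧ MonU (fun q => (T.Th w d q).1) p r)) := by
    intro w d
    by_cases hw : w ∈ T.C
    · obtain ⟨p, r, hm⟩ := monU_x T hw d
      obtain ⟨U, hU, hU0, h2⟩ := id hm
      obtain ⟨δ, hδ, hb⟩ := Metric.eventually_nhds_iff_ball.1
        (h2.and (hU.continuousAt.eventually_ne hU0))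
      refine ⟨δ, hδ, fun _ _ q hq h0 => ?_⟩
      obtain ⟨h3, h4⟩ := hb q (mem_ball_zero_iff.2 hq)
      replace h0 : q.1 ^ p * q.2 ^ r * U q = 0 := h3.symm.trans h0
      rcases mul_eq_zero.1 h0 with h5 | h5
      · rcases mul_eq_zero.1 h5 with h6 | h6
        · left
          by_contra h7
          exact pow_ne_zero p h7 h6
        · right
          have h7 : q.2 = 0 := by
            by_contra h7
            exact pow_ne_zero r h7 h6
          refine ⟨h7, p, r, Nat.pos_of_ne_zero fun h8 => ?_, hm⟩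
          rw [h8, pow_zero] at h6
          exact one_ne_zero h6
      · exact absurd h5 h4
    · exact ⟨1, one_pos, fun h => absurd h hw⟩
  choose δ hδ hδ' using h1
  obtain ⟨F, r₀, hF, hr₀, hcov⟩ := T.Th_cover δ hδ
  have hy : ‖((0, ((r₀ / 2 : ℝ) : ℂ)) : ℂ × ℂ)‖ < r₀ := by
    rw [Prod.norm_def]
    simp only [norm_zero, Complex.norm_real, Real.norm_eq_abs]
    rw [abs_of_pos (by positivity), max_eq_right (by positivity)]
    linarith
  have hy0 : ((0, ((r₀ / 2 : ℝ) : ℂ)) : ℂ × ℂ) ≠ 0 := by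
    intro h
    have h2 : ((r₀ / 2 : ℝ) : ℂ) = 0 := congrArg Prod.snd h
    rw [Complex.ofReal_eq_zero] at h2
    linarith
  obtain ⟨x, hx, q, hq, hqq⟩ := hcov _ hy hy0
  obtain ⟨hx1, hx2⟩ := hF x hx
  have h2 : (T.Th x.1 x.2 q).1 = 0 := by rw [hqq]
  rcases hδ' x.1 x.2 hx1 hx2 q hq h2 with h3 | ⟨h3, h4⟩
  · exfalso
    apply hy0
    rw [← hqq]
    have h4 : q = (0, q.2) := Prod.ext h3 rfl
    rw [h4]
    exact T.Th_fst_zero _ _ _
  · refine ⟨x.1, hx1, x.2, hx2, fun hexc => ?_, h4⟩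
    apply hy0
    rw [← hqq, T.Th_of_notMem hx2]
    have h5 : phi (fun q => q.1 * D q) (x.2 :: x.1) = fun _ => 0 :=
      H928.phi_of_zero (T.nc x.1 hx1 x.2 hx2) (.of_forall fun a => by
        rw [H928.psi_snd_zero hexc]
        simp)
    rw [h5, h3, zero_add]
    exact H928.psi_snd_zero hexc _

end tree

/-- (X3) if the polynomial has simple roots on the second axis then the monodromy around it is
trivial. -/
theorem rho_eq_one {n K : ℕ} {P : ℂ × ℂ → ℂ[X]} {Θ : ℂ × ℂ → ℂ × ℂ} {ζ : Fin n → ℂ × ℂ → ℂ}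
    {σ ρ : Equiv.Perm (Fin n)} (C : CR P Θ n K ζ σ ρ)
    (hs : ∀ᶠ a in 𝓝[≠] (0 : ℂ), ∀ z, (P (Θ (a, 0))).eval z = 0 →
      (derivative (P (Θ (a, 0)))).eval z ≠ 0) : ρ = 1 := by
  have hc : Tendsto (fun s : ℂ => ((s, 0) : ℂ × ℂ)) (𝓝[≠] 0) (𝓝 0) := by
    have : Continuous fun s : ℂ => ((s, 0) : ℂ × ℂ) := by fun_prop
    exact (this.tendsto 0).mono_left nhdsWithin_le_nhds
  have hK : Tendsto (fun s : ℂ => s ^ K) (𝓝[≠] 0) (𝓝[≠] 0) := by
    rw [tendsto_nhdsWithin_iff]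
    constructor
    · have : Continuous fun s : ℂ => s ^ K := by fun_prop
      have h1 := this.tendsto 0
      rw [zero_pow C.hK] at h1
      exact h1.mono_left nhdsWithin_le_nhds
    · filter_upwards [self_mem_nhdsWithin] with s hs1
      exact pow_ne_zero K hs1
  obtain ⟨a, ⟨h1, h2⟩, h3⟩ := (((hc.eventually (C.prod.and C.mon2))).and (hK.eventually hs)).exists
  have h1' : P (Θ (a ^ K, 0)) = ∏ l, (X - Polynomial.C (ζ l (a, 0))) := by
    have := h1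
    simp only [zero_pow C.hK] at this
    exact this
  have hinj : Function.Injective fun l => ζ l (a, 0) := by
    intro i j hij
    by_contra hne
    have h4 : P (Θ (a ^ K, 0)) = (X - Polynomial.C (ζ i (a, 0))) *
        ((X - Polynomial.C (ζ i (a, 0))) *
          ∏ l ∈ (Finset.univ.erase i).erase j, (X - Polynomial.C (ζ l (a, 0)))) := by
      rw [h1', ← Finset.mul_prod_erase Finset.univ _ (Finset.mem_univ i),
        ← Finset.mul_prod_erase (Finset.univ.erase i) _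
          (Finset.mem_erase.2 ⟨fun h => hne h.symm, Finset.mem_univ j⟩)]
      have h5 : ζ j (a, 0) = ζ i (a, 0) := hij.symm
      rw [h5]
    have h5 := h3 (ζ i (a, 0)) (by rw [h4]; simp)
    apply h5
    rw [h4]
    simp [derivative_mul]
  ext l
  have h4 := h2 l
  rw [mul_zero] at h4
  have h5 := hinj h4
  rw [Equiv.Perm.one_apply]
  exact congrArg Fin.val h5.symm

/-- (X1) + (X3): the monodromy around the curve `x = 0` is trivial -/
theorem rho_eq_one_of_x {f : (Fin 3 → ℂ) → ℂ} {n K : ℕ} {P : ℂ × ℂ → ℂ[X]}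
    {v : ℂ × (ℂ × ℂ) → ℂ} (W : WD f n P v) {Θ : ℂ × ℂ → ℂ × ℂ} (hΘ : AnalyticAt ℂ Θ 0)
    (hΘ0 : Θ 0 = 0) (hDy : ∃ᶠ y in 𝓝 (0 : ℂ), disc n P (0, y) ≠ 0) {p r : ℕ}
    (hx : MonU (fun q => (Θ q).1) p r) (hr : 0 < r)
    (hoff : ∀ᶠ q in 𝓝 (0 : ℂ × ℂ), q.1 ≠ 0 → q.2 ≠ 0 → disc n P (Θ q) ≠ 0)
    (hne : ∀ᶠ q in 𝓝 (0 : ℂ × ℂ), q.1 ≠ 0 → Θ q ≠ 0)
    {ζ : Fin n → ℂ × ℂ → ℂ} {σ ρ : Equiv.Perm (Fin n)} (C : CR P Θ n K ζ σ ρ) : ρ = 1 := by
  obtain ⟨p', r', h1⟩ := monU_of_ne (W.analyticAt_disc.comp_of_eq hΘ hΘ0) hoff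
  have h2 := disc_unit hΘ hΘ0 W.analyticAt_disc hDy hx hr h1 hne
  subst h2
  refine rho_eq_one C ?_
  obtain ⟨U, hU, hU0, h3⟩ := h1
  have hc : Tendsto (fun s : ℂ => ((s, 0) : ℂ × ℂ)) (𝓝[≠] 0) (𝓝 0) := by
    have : Continuous fun s : ℂ => ((s, 0) : ℂ × ℂ) := by fun_prop
    exact (this.tendsto 0).mono_left nhdsWithin_le_nhds
  filter_upwards [hc.eventually (h3.and (hU.continuousAt.eventually_ne hU0)),
    self_mem_nhdsWithin] with a ha ha0
  refine (W.disc_ne (Θ (a, 0))).1 ?_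
  have h4 : disc n P (Θ (a, 0)) = a ^ p' * 0 ^ 0 * U (a, 0) := ha.1
  rw [h4, pow_zero, mul_one]
  exact mul_ne_zero (pow_ne_zero _ ha0) ha.2

end Vale.Agent.P298.H868.Xf
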