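import Vale.Agent.P298.H471.Link
import Vale.Agent.P298.H701.Br9
import Vale.Agent.P298.H272.Chev
import Vale.Agent.P298.H868.Xf

/-!
# E1: the maximal ideal of the surface
-/

noncomputable section

namespace Vale.Agent.P298.H868.Xf

open Filter Topology Vale.Agent.P298 Vale.Agent.P298.H707
open Vale.Agent.P298.H471 (RV cl)

/-- the ideal of the variables -/
def mm (f : (Fin 3 → ℂ) → ℂ) : Ideal (RV f) :=
  (Ideal.span (Set.range (MvPowerSeries.X : Fin 3 → MvPowerSeries (Fin 3) ℂ))).map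
    (Ideal.Quotient.mk _)

/-- field `mm_fin` of `CModel`. -/
theorem mm_fin (f : (Fin 3 → ℂ) → ℂ) (n : ℕ) : Module.Finite ℂ (RV f ⧸ mm f ^ n) := by
  let I : Ideal (MvPowerSeries (Fin 3) ℂ) := Ideal.span {H766.ser f}
  let φ : MvPowerSeries (Fin 3) ℂ →ₗ[ℂ] RV f ⧸ mm f ^ n :=
    (Ideal.Quotient.mkₐ ℂ (mm f ^ n)).toLinearMap ∘ₗ (Ideal.Quotient.mkₐ ℂ I).toLinearMap
  have hφ : ∀ p ∈ H272.Tr (Fin 3) ℂ n, φ p = 0 := by
    intro p hp
    have h1 := H272.Tr_le_pow n p hp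
    refine (Ideal.Quotient.eq_zero_iff_mem).2 ?_
    have h2 : (Ideal.Quotient.mk I) p ∈ (Ideal.span (Set.range
        (MvPowerSeries.X : Fin 3 → MvPowerSeries (Fin 3) ℂ)) ^ n).map (Ideal.Quotient.mk I) :=
      Ideal.mem_map_of_mem _ h1
    rw [Ideal.map_pow] at h2
    exact h2
  have hs : Function.Surjective ((H272.Tr (Fin 3) ℂ n).liftQ φ fun p hp => hφ p hp) := by
    intro y
    obtain ⟨y1, rfl⟩ := Ideal.Quotient.mk_surjective y
    obtain ⟨y2, rfl⟩ := Ideal.Quotient.mk_surjective y1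
    exact ⟨Submodule.Quotient.mk y2, rfl⟩
  exact Module.Finite.of_surjective _ hs

theorem mem_span_X {g : MvPowerSeries (Fin 3) ℂ} (hg : MvPowerSeries.constantCoeff g = 0) :
    g ∈ Ideal.span (Set.range (MvPowerSeries.X : Fin 3 → MvPowerSeries (Fin 3) ℂ)) := by
  have h := H272.Tr_le_pow (σ := Fin 3) (k := ℂ) 1 g (fun m hm => by
    have h1 : m = 0 := by
      rw [Nat.lt_one_iff] at hm
      exact Finsupp.degree_eq_zero_iff m |>.1 hm
    rw [h1]
    exact hg)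
  rwa [pow_one] at h

theorem constantCoeff_of_mem {g : MvPowerSeries (Fin 3) ℂ}
    (hg : g ∈ Ideal.span (Set.range (MvPowerSeries.X : Fin 3 → MvPowerSeries (Fin 3) ℂ))) :
    MvPowerSeries.constantCoeff g = 0 := by
  have h : Ideal.span (Set.range (MvPowerSeries.X : Fin 3 → MvPowerSeries (Fin 3) ℂ)) ≤
      RingHom.ker (MvPowerSeries.constantCoeff (σ := Fin 3) (R := ℂ)) := by
    rw [Ideal.span_le]
    rintro _ ⟨i, rfl⟩
    exact MvPowerSeries.constantCoeff_X i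
  exact h hg

theorem mem_mm_iff {f : (Fin 3 → ℂ) → ℂ} (hf : Hol f) (hf0 : f 0 = 0)
    (g : MvPowerSeries (Fin 3) ℂ) :
    (Ideal.Quotient.mk _ g : RV f) ∈ mm f ↔ MvPowerSeries.constantCoeff g = 0 := by
  constructor
  · intro h
    obtain ⟨g', h1, h2⟩ := (Ideal.mem_map_iff_of_surjective _ Ideal.Quotient.mk_surjective).1 h
    have h3 : g - g' ∈ Ideal.span {H766.ser f} := by
      rw [← Ideal.Quotient.eq]
      exact h2.symm
    obtain ⟨c, hc⟩ := Ideal.mem_span_singleton'.1 h3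
    have h4 := congrArg (MvPowerSeries.constantCoeff (σ := Fin 3) (R := ℂ)) hc
    rw [map_mul, H766.constantCoeff_ser hf, hf0, mul_zero, map_sub, constantCoeff_of_mem h1,
      sub_zero] at h4
    exact h4.symm
  · intro h
    exact Ideal.mem_map_of_mem _ (mem_span_X h)

theorem X0_dvd_ser2 {g : ℂ × ℂ → ℂ} (hg : AnalyticAt ℂ g 0)
    (hax : ∀ᶠ b in 𝓝 (0 : ℂ), g (0, b) = 0) : MvPowerSeries.X 0 ∣ H701.ser2 g := by
  rw [H701.ser2, H701.X_dvd_ser_iff (H701.hol2 hg)]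
  refine H701.exists_div_coord (H701.hol2 hg) 0 ?_
  have hc : Tendsto (fun x : Fin 2 → ℂ => x 1) (𝓝 0) (𝓝 0) := by
    have h1 : Continuous fun x : Fin 2 → ℂ => x 1 := continuous_apply 1
    exact h1.tendsto 0
  filter_upwards [hc.eventually hax] with x hx
  rw [H701.killL_apply]
  simpa using hx

/-- the first coordinate divides all elements of the maximal ideal in a chart whose first axis is
contracted to the origin. -/
theorem X0_dvd_chH {Φ : ℂ × ℂ → Fin 3 → ℂ} (hΦ : AnalyticAt ℂ Φ 0) (h0 : Φ 0 = 0)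
    (hax : ∀ᶠ b in 𝓝 (0 : ℂ), Φ (0, b) = 0) {g : MvPowerSeries (Fin 3) ℂ}
    (hg : MvPowerSeries.constantCoeff g = 0) :
    MvPowerSeries.X 0 ∣ H701.chH Φ hΦ h0 g := by
  have h1 := mem_span_X hg
  have h2 : Ideal.span (Set.range (MvPowerSeries.X : Fin 3 → MvPowerSeries (Fin 3) ℂ)) ≤
      (Ideal.span {MvPowerSeries.X 0}).comap (H701.chH Φ hΦ h0) := by
    rw [Ideal.span_le]
    rintro _ ⟨i, rfl⟩
    rw [SetLike.mem_coe, Ideal.mem_comap, Ideal.mem_span_singleton, ← H766.ser_coord i,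
      H701.chH_ser hΦ h0 (H701.hol_coord i)]
    refine X0_dvd_ser2 (g := fun q => Φ q i) ?_ ?_
    · exact ((ContinuousLinearMap.proj (R := ℂ) (φ := fun _ : Fin 3 => ℂ) i).analyticAt _).comp hΦ
    · filter_upwards [hax] with b hb
      rw [hb]
      rfl
  exact Ideal.mem_span_singleton.1 (h2 h1)

end Vale.Agent.P298.H868.Xf
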